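import Mathlib

/-!
# Duality: a priori estimates give solvability (package XT-PROF, helper413)
-/

namespace Vale.Agent.P267.H413

open Filter Topology Real

/-- **(U4)** If `p₀ b ≤ C p₁ (D b)` and `|g b| ≤ M p₀ b` for all test sections `b`, then there is
a functional `u` with `u (D b) = g b` and `|u φ| ≤ M C p₁ φ`. -/
theorem duality {E F : Type*} [AddCommGroup E] [Module ℂ E] [AddCommGroup F] [Module ℂ F]
    (D : E →ₗ[ℂ] F) (p₀ : Seminorm ℂ E) (p₁ : Seminorm ℂ F) {C M : ℝ} (hC0 : 0 ≤ C)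
    (hM : 0 ≤ M) (hC : ∀ b, p₀ b ≤ C * p₁ (D b)) (g : E →ₗ[ℂ] ℂ)
    (hg : ∀ b, ‖g b‖ ≤ M * p₀ b) :
    ∃ u : F →ₗ[ℂ] ℂ, (∀ b, u (D b) = g b) ∧ ∀ φ, ‖u φ‖ ≤ M * C * p₁ φ := by
  have hker : LinearMap.ker D ≤ LinearMap.ker g := by
    intro b hb
    rw [LinearMap.mem_ker] at hb ⊢
    have h1 := hC b
    rw [hb, map_zero, mul_zero] at h1
    have h2 : ‖g b‖ ≤ 0 := (hg b).trans (mul_nonpos_of_nonneg_of_nonpos hM h1)
    exact norm_le_zero_iff.1 h2
  let f : LinearMap.range D →ₗ[ℂ] ℂ :=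
    ((LinearMap.ker D).liftQ g hker).comp (D.quotKerEquivRange.symm : _ →ₗ[ℂ] _)
  have hf : ∀ b, f ⟨D b, b, rfl⟩ = g b := by
    intro b
    have h1 : (D.quotKerEquivRange.symm ⟨D b, b, rfl⟩) = (LinearMap.ker D).mkQ b := by
      rw [LinearEquiv.symm_apply_eq]
      apply Subtype.ext
      simp
    change ((LinearMap.ker D).liftQ g hker) (D.quotKerEquivRange.symm ⟨D b, b, rfl⟩) = g b
    rw [h1]
    simp
  let p : Seminorm ℂ F := (Real.toNNReal (M * C)) • p₁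
  have hp : ∀ φ, p φ = M * C * p₁ φ := by
    intro φ
    change ((Real.toNNReal (M * C) : NNReal) : ℝ) * p₁ φ = _
    rw [Real.coe_toNNReal _ (mul_nonneg hM hC0)]
  obtain ⟨u, hu1, hu2⟩ := Module.Dual.exists_extension_of_le_seminorm (LinearMap.range D) f
    (p := p) (by
      rintro ⟨_, b, rfl⟩
      rw [hf]
      refine (hg b).trans ?_
      rw [hp, mul_assoc]
      exact mul_le_mul_of_nonneg_left (hC b) hM)
  refine ⟨u, fun b => ?_, fun φ => ?_⟩
  · rw [← hf b, ← hu1]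
  · rw [← hp]; exact hu2 φ

end Vale.Agent.P267.H413
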