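import Vale.Agent.P267.H413.Unif

/-!
# Periodic profiles: good centres and uniform estimates over one period (helper413)

For objects on the closed surface `X_m`, seen as quasi-periodic objects on the cyclic cover,
the weighted profiles are `m`-periodic and the `ℓ¹` norm is the sum over one period.
-/

namespace Vale.Agent.P267.H413

open Filter Topology Real

/-- Sum over one period. -/
noncomputable def perSum (m : ℕ) (A : ℤ → ℝ) : ℝ := ∑ i ∈ Finset.range m, A i

lemma perSum_shift_one {m : ℕ} {A : ℤ → ℝ} (hA : ∀ j, A (j + m) = A j) :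
    perSum m (fun j => A (j + 1)) = perSum m A := by
  have h1 := Finset.sum_range_succ (fun i : ℕ => A (i : ℤ)) m
  have h2 := Finset.sum_range_succ' (fun i : ℕ => A (i : ℤ)) m
  have h3 : A ((m : ℕ) : ℤ) = A 0 := by simpa using hA 0
  have h4 : ∑ i ∈ Finset.range m, A ((i + 1 : ℕ) : ℤ) = ∑ i ∈ Finset.range m, A (i : ℤ) := by
    rw [h1] at h2
    rw [h3] at h2
    simpa using h2.symm
  simpa [perSum] using h4

lemma perSum_shift {m : ℕ} {A : ℤ → ℝ} (hA : ∀ j, A (j + m) = A j) (i : ℤ) :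
    perSum m (fun j => A (j + i)) = perSum m A := by
  induction i using Int.induction_on with
  | zero => simp
  | succ n ih =>
      rw [← ih]
      have := perSum_shift_one (m := m) (A := fun j => A (j + n)) (fun j => by
        change A (j + m + n) = A (j + n)
        rw [show j + (m : ℤ) + n = j + n + m by ring]; exact hA _)
      rw [← this]
      congr 1
      funext j
      congr 1; ring
  | pred n ih =>
      rw [← ih]
      have := perSum_shift_one (m := m) (A := fun j => A (j + (-(n : ℤ) - 1))) (fun j => by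
        change A (j + m + (-(n : ℤ) - 1)) = A (j + (-(n : ℤ) - 1))
        rw [show j + (m : ℤ) + (-(n : ℤ) - 1) = j + (-(n : ℤ) - 1) + m by ring]; exact hA _)
      rw [← this]
      congr 1
      funext j
      congr 1; ring

lemma bdd_of_per {m : ℕ} (hm : 0 < m) {A : ℤ → ℝ} (hA : ∀ j, A (j + m) = A j)
    (hA0 : ∀ j, 0 ≤ A j) (j : ℤ) : A j ≤ perSum m A := by
  rw [← perSum_shift hA j]
  have h1 : A j = A (((0 : ℕ) : ℤ) + j) := by simp
  rw [h1]
  exact Finset.single_le_sum (f := fun i : ℕ => A ((i : ℤ) + j)) (fun i _ => hA0 _)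
    (Finset.mem_range.2 hm)

/-- **CENTER**, periodic `ℓ¹` version. -/
theorem center_per {m : ℕ} (hm : 0 < m) {A B : ℤ → ℝ} (hA : ∀ j, 0 ≤ A j) (hB : ∀ j, 0 ≤ B j)
    (hpA : ∀ j, A (j + m) = A j) (hpB : ∀ j, B (j + m) = B j) {j₁ : ℤ} (h1 : 0 < A j₁)
    {η δ : ℝ} (hη : 0 ≤ η) (hδ : 0 < δ) (hle : perSum m B ≤ η * perSum m A) :
    ∃ c, 0 < A c ∧ (∀ k, A k ≤ eg δ (k - c) * A c) ∧
      ∀ k, B k ≤ Kc δ * η * (eg δ (k - c) * A c) := by
  have hAM : ∀ j, A j ≤ perSum m A := bdd_of_per hm hpA hA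
  have hBM : ∀ j, B j ≤ perSum m B := bdd_of_per hm hpB hB
  have hBs0 : 0 ≤ perSum m B := Finset.sum_nonneg (fun i _ => hB _)
  set Bt : ℤ → ℝ := fun j => ∑' i, eg (-δ) i * B (j + i) with hBt
  have hsm : ∀ j, Summable (fun i => eg (-δ) i * B (j + i)) := fun j =>
    Summable.of_nonneg_of_le (fun i => mul_nonneg (eg_pos _ _).le (hB _))
      (fun i => mul_le_mul_of_nonneg_left (hBM _) (eg_pos _ _).le)
      ((summable_eg_neg hδ).mul_right _)
  have hBtle : ∀ j k, B k ≤ eg δ (k - j) * Bt j := by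
    intro j k
    have h2 : eg (-δ) (k - j) * B (j + (k - j)) ≤ Bt j :=
      (hsm j).le_tsum (k - j) (fun i _ => mul_nonneg (eg_pos _ _).le (hB _))
    rw [add_sub_cancel] at h2
    calc B k = eg δ (k - j) * (eg (-δ) (k - j) * B k) := by
          rw [eg_neg_left, ← mul_assoc, mul_inv_cancel₀ (eg_pos _ _).ne', one_mul]
      _ ≤ eg δ (k - j) * Bt j := mul_le_mul_of_nonneg_left h2 (eg_pos _ _).le
  have hsum : perSum m Bt = Kc δ * perSum m B := by
    have h3 : perSum m Bt = ∑' i, ∑ j ∈ Finset.range m, eg (-δ) i * B (j + i) := by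
      exact (Summable.tsum_finsetSum (s := Finset.range m)
        (f := fun (j : ℕ) (i : ℤ) => eg (-δ) i * B ((j : ℤ) + i))
        (fun j _ => hsm (j : ℤ))).symm
    rw [h3, Kc, ← tsum_mul_right]
    congr 1
    funext i
    rw [← Finset.mul_sum]
    congr 1
    exact perSum_shift hpB i
  have hex : ∃ j₀, Bt j₀ ≤ Kc δ * η * A j₀ := by
    by_contra hcon
    push Not at hcon
    have h5 : perSum m (fun j => Kc δ * η * A j) < perSum m Bt :=
      Finset.sum_lt_sum_of_nonempty ⟨0, Finset.mem_range.2 hm⟩ (fun j _ => hcon j)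
    have h6 : perSum m (fun j => Kc δ * η * A j) = Kc δ * η * perSum m A := by
      simp only [perSum, Finset.mul_sum]
    rw [h6, hsum] at h5
    have h7 : Kc δ * perSum m B ≤ Kc δ * (η * perSum m A) :=
      mul_le_mul_of_nonneg_left hle (Kc_pos hδ).le
    linarith [h7, h5, mul_assoc (Kc δ) η (perSum m A)]
  obtain ⟨j₀, hj₀⟩ := hex
  obtain ⟨c, hc, -, h2, h3⟩ := exists_center hA hAM h1 hδ j₀
  refine ⟨c, hc, h2, fun k => ?_⟩
  have hK : 0 ≤ Kc δ * η := mul_nonneg (Kc_pos hδ).le hη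
  calc B k ≤ eg δ (k - j₀) * Bt j₀ := hBtle j₀ k
    _ ≤ eg δ (k - j₀) * (Kc δ * η * (eg (-δ) (c - j₀) * A c)) := by
        refine mul_le_mul_of_nonneg_left ?_ (eg_pos _ _).le
        exact hj₀.trans (mul_le_mul_of_nonneg_left h3 hK)
    _ = Kc δ * η * ((eg δ (k - j₀) * eg (-δ) (c - j₀)) * A c) := by ring
    _ ≤ Kc δ * η * (eg δ (k - c) * A c) := by
        refine mul_le_mul_of_nonneg_left ?_ hK
        refine mul_le_mul_of_nonneg_right ?_ hc.le
        have h5 : eg δ (k - j₀) ≤ eg δ (k - c) * eg δ (c - j₀) := by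
          have := eg_add_le hδ.le (k - c) (c - j₀)
          simpa using this
        calc eg δ (k - j₀) * eg (-δ) (c - j₀)
            ≤ (eg δ (k - c) * eg δ (c - j₀)) * eg (-δ) (c - j₀) :=
              mul_le_mul_of_nonneg_right h5 (eg_pos _ _).le
          _ = eg δ (k - c) := by
              rw [mul_assoc, eg_neg_left, mul_inv_cancel₀ (eg_pos _ _).ne', mul_one]

/-- **UNIF**, periodic `ℓ¹` version (sum over one period). -/
theorem unif_per {U : Set Prof} (hU : IsFam U) {δ : ℝ} (hδ : 0 < δ) (hbad : ¬ Bad U δ) :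
    ∃ C, 0 < C ∧ ∀ p ∈ U, ∀ m : ℕ, 0 < m →
      (∀ j, p.w (j + m) * p.a (j + m) = p.w j * p.a j) →
      (∀ j, p.w (j + m) * p.b (j + m) = p.w j * p.b j) →
      perSum m (fun j => p.w j * p.a j) ≤ C * perSum m (fun j => p.w j * p.b j) := by
  by_contra hcon
  push Not at hcon
  apply hbad
  have hstep : ∀ n : ℕ, ∃ (q : Prof) (c : ℤ), q ∈ U ∧ q.a c = 1 ∧
      (∀ j, q.w (c + j) * q.a (c + j) ≤ eg δ j * q.w c) ∧
      ∀ j, q.w (c + j) * q.b (c + j) ≤ (Kc δ / (n + 1 : ℝ)) * (eg δ j * q.w c) := by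
    intro n
    have hn : (0 : ℝ) < n + 1 := by positivity
    obtain ⟨p, hp, m, hm, hpA, hpB, hlt⟩ := hcon (n + 1) hn
    have hA0 : ∀ j, 0 ≤ p.w j * p.a j :=
      fun j => mul_nonneg (hU.w_pos p hp j).le (hU.a_nonneg p hp j)
    have hB0 : ∀ j, 0 ≤ p.w j * p.b j :=
      fun j => mul_nonneg (hU.w_pos p hp j).le (hU.b_nonneg p hp j)
    have hBs : 0 ≤ perSum m (fun j => p.w j * p.b j) := Finset.sum_nonneg (fun i _ => hB0 _)
    have hAs : 0 < perSum m (fun j => p.w j * p.a j) :=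
      lt_of_le_of_lt (mul_nonneg hn.le hBs) hlt
    have hex : ∃ j₁, 0 < p.w j₁ * p.a j₁ := by
      by_contra h
      push Not at h
      have : perSum m (fun j => p.w j * p.a j) ≤ 0 := Finset.sum_nonpos (fun i _ => h _)
      linarith
    obtain ⟨j₁, hj₁⟩ := hex
    have hle : perSum m (fun j => p.w j * p.b j) ≤
        (1 / (n + 1 : ℝ)) * perSum m (fun j => p.w j * p.a j) := by
      rw [one_div, ← div_eq_inv_mul, le_div_iff₀ hn, mul_comm]
      exact hlt.le
    obtain ⟨c, hc, h1, h2⟩ := center_per hm (A := fun j => p.w j * p.a j)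
      (B := fun j => p.w j * p.b j) hA0 hB0 hpA hpB hj₁ (η := 1 / (n + 1 : ℝ))
      (by positivity) hδ hle
    obtain ⟨q, hq, h3, h4, h5⟩ := exists_normalised hU hp (ε := Kc δ / (n + 1 : ℝ)) c hc h1
      (fun k => by
        have := h2 k
        calc p.w k * p.b k ≤ _ := this
          _ = _ := by ring)
    exact ⟨q, c, hq, h3, h4, h5⟩
  choose q c hq h3 h4 h5 using hstep
  exact ⟨q, c, fun n => Kc δ / (n + 1 : ℝ), hq, fun n => by have := Kc_pos hδ; positivity,
    tendsto_const_div_nat _, h3, h4, h5⟩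

end Vale.Agent.P267.H413
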