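import Mathlib

/-!
# Good centres for weighted slab profiles (package XT-PROF, helper413)

`A, B : ℤ → ℝ` are nonnegative.  If `B` is much smaller than `A` in the sup norm or in the
`ℓ¹` norm then there is a centre `c` such that `A` is, up to the slowly growing factor
`exp (δ |k - c|)`, dominated by `A c`, and `B` is much smaller than that.
-/

namespace Vale.Agent.P267.H413

open Filter Topology Real

/-- The slowly growing factor. -/
noncomputable def eg (δ : ℝ) (k : ℤ) : ℝ := exp (δ * |(k : ℝ)|)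

lemma eg_pos (δ : ℝ) (k : ℤ) : 0 < eg δ k := exp_pos _

lemma one_le_eg {δ : ℝ} (hδ : 0 ≤ δ) (k : ℤ) : 1 ≤ eg δ k :=
  one_le_exp (mul_nonneg hδ (abs_nonneg _))

lemma eg_zero (δ : ℝ) : eg δ 0 = 1 := by simp [eg]

lemma eg_neg (δ : ℝ) (k : ℤ) : eg δ (-k) = eg δ k := by simp [eg]

lemma eg_neg_left (δ : ℝ) (k : ℤ) : eg (-δ) k = (eg δ k)⁻¹ := by
  simp [eg, ← Real.exp_neg]

lemma eg_mul (δ ε : ℝ) (k : ℤ) : eg δ k * eg ε k = eg (δ + ε) k := by
  simp only [eg, ← Real.exp_add]; ring_nf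

lemma eg_add_le {δ : ℝ} (hδ : 0 ≤ δ) (j k : ℤ) : eg δ (j + k) ≤ eg δ j * eg δ k := by
  simp only [eg, ← Real.exp_add, ← mul_add]
  apply exp_le_exp.2
  apply mul_le_mul_of_nonneg_left _ hδ
  push_cast
  exact abs_add_le _ _

lemma eg_sub_le {δ : ℝ} (hδ : 0 ≤ δ) (j k : ℤ) : eg δ (j - k) ≤ eg δ j * eg δ k := by
  have := eg_add_le hδ j (-k)
  rwa [eg_neg, ← sub_eq_add_neg] at this

lemma eg_mono_left {δ ε : ℝ} (h : δ ≤ ε) (k : ℤ) : eg δ k ≤ eg ε k :=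
  exp_le_exp.2 (mul_le_mul_of_nonneg_right h (abs_nonneg _))

lemma summable_eg_neg {δ : ℝ} (hδ : 0 < δ) : Summable (fun k : ℤ => eg (-δ) k) := by
  have h1 : Summable (fun n : ℕ => (exp (-δ)) ^ n) :=
    summable_geometric_of_lt_one (exp_pos _).le (by rw [exp_lt_one_iff]; linarith)
  refine Summable.of_nat_of_neg ?_ ?_
  · refine h1.congr (fun n => ?_)
    simp [eg, ← Real.exp_nat_mul, mul_comm]
  · refine h1.congr (fun n => ?_)
    simp [eg, ← Real.exp_nat_mul, mul_comm]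

lemma tendsto_eg_neg {δ : ℝ} (hδ : 0 < δ) : Tendsto (fun k : ℤ => eg (-δ) k) cofinite (𝓝 0) :=
  (summable_eg_neg hδ).tendsto_cofinite_zero

/-- A function on `ℤ` tending to `0` with a positive value attains its maximum. -/
lemma exists_max_of_tendsto {F : ℤ → ℝ} (h : Tendsto F cofinite (𝓝 0)) {j : ℤ} (hj : 0 < F j) :
    ∃ c, 0 < F c ∧ ∀ k, F k ≤ F c := by
  have hfin : {k | F j ≤ F k}.Finite := by
    have := (h.eventually (gt_mem_nhds hj))
    rw [Filter.eventually_cofinite] at this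
    refine this.subset (fun k hk => ?_)
    simpa using hk
  obtain ⟨c, hc, hmax⟩ := Set.exists_max_image _ F hfin ⟨j, le_refl (F j)⟩
  refine ⟨c, lt_of_lt_of_le hj hc, fun k => ?_⟩
  by_cases hk : F j ≤ F k
  · exact hmax k hk
  · exact (not_le.1 hk).le.trans hc

/-- Centre relative to a base point `j₀`. -/
lemma exists_center {A : ℤ → ℝ} (hA : ∀ j, 0 ≤ A j) {M : ℝ} (hAM : ∀ j, A j ≤ M)
    {j₁ : ℤ} (h1 : 0 < A j₁) {δ : ℝ} (hδ : 0 < δ) (j₀ : ℤ) :
    ∃ c, 0 < A c ∧ (∀ k, A k ≤ eg δ (k - j₀) * (eg (-δ) (c - j₀) * A c)) ∧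
      (∀ k, A k ≤ eg δ (k - c) * A c) ∧ A j₀ ≤ eg (-δ) (c - j₀) * A c := by
  have hM : 0 ≤ M := (hA 0).trans (hAM 0)
  have ht : Tendsto (fun k : ℤ => eg (-δ) (k - j₀) * A k) cofinite (𝓝 0) := by
    have h2 : Tendsto (fun k : ℤ => eg (-δ) (k - j₀)) cofinite (𝓝 0) :=
      (tendsto_eg_neg hδ).comp (Equiv.subRight j₀).injective.tendsto_cofinite
    have h3 : Tendsto (fun k : ℤ => eg (-δ) (k - j₀) * M) cofinite (𝓝 0) := by
      simpa using h2.mul_const M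
    exact squeeze_zero (fun k => mul_nonneg (eg_pos _ _).le (hA k))
      (fun k => mul_le_mul_of_nonneg_left (hAM k) (eg_pos _ _).le) h3
  obtain ⟨c, hc0, hc⟩ := exists_max_of_tendsto ht (j := j₁) (mul_pos (eg_pos _ _) h1)
  have hAc : 0 < A c := by
    by_contra hcon
    have : A c = 0 := le_antisymm (not_lt.1 hcon) (hA c)
    rw [this, mul_zero] at hc0
    exact lt_irrefl _ hc0
  have key : ∀ k, A k ≤ eg δ (k - j₀) * (eg (-δ) (c - j₀) * A c) := by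
    intro k
    have := hc k
    have h4 : A k = eg δ (k - j₀) * (eg (-δ) (k - j₀) * A k) := by
      rw [eg_neg_left, ← mul_assoc, mul_inv_cancel₀ (eg_pos _ _).ne', one_mul]
    rw [h4]
    exact mul_le_mul_of_nonneg_left this (eg_pos _ _).le
  refine ⟨c, hAc, key, fun k => ?_, ?_⟩
  · refine (key k).trans ?_
    rw [← mul_assoc]
    refine mul_le_mul_of_nonneg_right ?_ hAc.le
    have h5 : eg δ (k - j₀) ≤ eg δ (k - c) * eg δ (c - j₀) := by
      have := eg_add_le hδ.le (k - c) (c - j₀)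
      simpa using this
    calc eg δ (k - j₀) * eg (-δ) (c - j₀) ≤ (eg δ (k - c) * eg δ (c - j₀)) * eg (-δ) (c - j₀) :=
          mul_le_mul_of_nonneg_right h5 (eg_pos _ _).le
      _ = eg δ (k - c) := by
          rw [mul_assoc, eg_neg_left, mul_inv_cancel₀ (eg_pos _ _).ne', mul_one]
  · have := key j₀
    simpa [eg_zero] using this

/-- **CENTER**, sup version. -/
theorem center_sup {A B : ℤ → ℝ} (hA : ∀ j, 0 ≤ A j) {M : ℝ} (hAM : ∀ j, A j ≤ M)
    {j₁ : ℤ} (h1 : 0 < A j₁) {η δ : ℝ} (hη : 0 ≤ η) (hδ : 0 < δ)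
    (hB : ∀ k, B k ≤ η * ⨆ j, A j) :
    ∃ c, 0 < A c ∧ (∀ k, A k ≤ eg δ (k - c) * A c) ∧
      ∀ k, B k ≤ 2 * η * (eg δ (k - c) * A c) := by
  have hbdd : BddAbove (Set.range A) := ⟨M, by rintro _ ⟨j, rfl⟩; exact hAM j⟩
  set S := ⨆ j, A j with hS
  have hSpos : 0 < S := lt_of_lt_of_le h1 (le_ciSup hbdd j₁)
  obtain ⟨j₀, hj₀⟩ := exists_lt_of_lt_ciSup (show S / 2 < ⨆ j, A j by rw [← hS]; linarith)
  obtain ⟨c, hc, -, h2, h3⟩ := exists_center hA hAM h1 hδ j₀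
  refine ⟨c, hc, h2, fun k => ?_⟩
  have h4 : A j₀ ≤ A c := by
    refine h3.trans ?_
    have : eg (-δ) (c - j₀) ≤ 1 := by
      rw [eg_neg_left]; exact inv_le_one_of_one_le₀ (one_le_eg hδ.le _)
    calc eg (-δ) (c - j₀) * A c ≤ 1 * A c := mul_le_mul_of_nonneg_right this hc.le
      _ = A c := one_mul _
  have h5 : A c ≤ eg δ (k - c) * A c := by
    calc A c = 1 * A c := (one_mul _).symm
      _ ≤ _ := mul_le_mul_of_nonneg_right (one_le_eg hδ.le _) hc.le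
  calc B k ≤ η * S := hB k
    _ ≤ η * (2 * A c) := mul_le_mul_of_nonneg_left (by linarith) hη
    _ = 2 * η * A c := by ring
    _ ≤ 2 * η * (eg δ (k - c) * A c) := mul_le_mul_of_nonneg_left h5 (by linarith)

/-- The constant `∑ exp (-δ |k|)`. -/
noncomputable def Kc (δ : ℝ) : ℝ := ∑' k : ℤ, eg (-δ) k

lemma one_le_Kc {δ : ℝ} (hδ : 0 < δ) : 1 ≤ Kc δ := by
  have := (summable_eg_neg hδ).le_tsum 0 (fun k _ => (eg_pos _ k).le)
  simpa [Kc, eg_zero] using this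

lemma Kc_pos {δ : ℝ} (hδ : 0 < δ) : 0 < Kc δ := lt_of_lt_of_le one_pos (one_le_Kc hδ)

lemma summable_smooth {B : ℤ → ℝ} (hB : ∀ j, 0 ≤ B j) (hs : Summable B) {δ : ℝ} (hδ : 0 < δ) :
    Summable (fun p : ℤ × ℤ => eg (-δ) (p.1 - p.2) * B p.2) := by
  have h1 : Summable (fun p : ℤ × ℤ => eg (-δ) p.1 * B p.2) :=
    Summable.mul_of_nonneg (summable_eg_neg hδ) hs (fun k => (eg_pos _ k).le) hB
  let e : ℤ × ℤ ≃ ℤ × ℤ :=
    { toFun := fun p => (p.1 - p.2, p.2)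
      invFun := fun p => (p.1 + p.2, p.2)
      left_inv := fun p => by simp
      right_inv := fun p => by simp }
  exact (e.summable_iff (f := fun p : ℤ × ℤ => eg (-δ) p.1 * B p.2)).2 h1

lemma tsum_smooth {B : ℤ → ℝ} (hB : ∀ j, 0 ≤ B j) (hs : Summable B) {δ : ℝ} (hδ : 0 < δ) :
    ∑' j, ∑' k, eg (-δ) (j - k) * B k = Kc δ * ∑' k, B k := by
  have h1 := summable_smooth hB hs hδ
  have h3 : ∑' j, ∑' k, eg (-δ) (j - k) * B k = ∑' k, ∑' j, eg (-δ) (j - k) * B k :=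
    (Summable.tsum_comm (f := fun j k => eg (-δ) (j - k) * B k) h1).symm
  rw [h3]
  have h4 : ∀ k : ℤ, ∑' j : ℤ, eg (-δ) (j - k) * B k = Kc δ * B k := by
    intro k
    rw [tsum_mul_right]
    congr 1
    exact (Equiv.subRight k).tsum_eq (fun k => eg (-δ) k)
  rw [tsum_congr h4, tsum_mul_left]

/-- **CENTER**, `ℓ¹` version. -/
theorem center_l1 {A B : ℤ → ℝ} (hA : ∀ j, 0 ≤ A j) (hB : ∀ j, 0 ≤ B j) (hsA : Summable A)
    (hsB : Summable B) {j₁ : ℤ} (h1 : 0 < A j₁) {η δ : ℝ} (hη : 0 ≤ η) (hδ : 0 < δ)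
    (hle : ∑' j, B j ≤ η * ∑' j, A j) :
    ∃ c, 0 < A c ∧ (∀ k, A k ≤ eg δ (k - c) * A c) ∧
      ∀ k, B k ≤ Kc δ * η * (eg δ (k - c) * A c) := by
  have hAM : ∀ j, A j ≤ ∑' j, A j := fun j => hsA.le_tsum j (fun k _ => hA k)
  set Bt : ℤ → ℝ := fun j => ∑' k, eg (-δ) (j - k) * B k with hBt
  have hsm := summable_smooth hB hsB hδ
  have hsm1 : ∀ j, Summable (fun k => eg (-δ) (j - k) * B k) := fun j => hsm.prod_factor j
  have hsBt : Summable Bt := hsm.prod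
  have hBtle : ∀ j k, B k ≤ eg δ (k - j) * Bt j := by
    intro j k
    have h2 : eg (-δ) (j - k) * B k ≤ Bt j :=
      (hsm1 j).le_tsum k (fun i _ => mul_nonneg (eg_pos _ _).le (hB i))
    have h3 : eg δ (k - j) = eg δ (j - k) := by rw [← eg_neg]; congr 1; ring
    calc B k = eg δ (j - k) * (eg (-δ) (j - k) * B k) := by
          rw [eg_neg_left, ← mul_assoc, mul_inv_cancel₀ (eg_pos _ _).ne', one_mul]
      _ ≤ eg δ (j - k) * Bt j := mul_le_mul_of_nonneg_left h2 (eg_pos _ _).le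
      _ = _ := by rw [h3]
  -- a good base point
  have hex : ∃ j₀, Bt j₀ ≤ Kc δ * η * A j₀ := by
    by_contra hcon
    push Not at hcon
    have h5 : ∑' j, Kc δ * η * A j < ∑' j, Bt j :=
      (hsA.mul_left _).tsum_lt_tsum (fun j => (hcon j).le) (hcon 0) hsBt
    rw [tsum_mul_left, hBt, tsum_smooth hB hsB hδ] at h5
    have h6 : Kc δ * ∑' k, B k ≤ Kc δ * (η * ∑' j, A j) :=
      mul_le_mul_of_nonneg_left hle (Kc_pos hδ).le
    nlinarith
  obtain ⟨j₀, hj₀⟩ := hex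
  obtain ⟨c, hc, -, h2, h3⟩ := exists_center hA hAM h1 hδ j₀
  refine ⟨c, hc, h2, fun k => ?_⟩
  have hK : 0 ≤ Kc δ * η := mul_nonneg (Kc_pos hδ).le hη
  calc B k ≤ eg δ (k - j₀) * Bt j₀ := hBtle j₀ k
    _ ≤ eg δ (k - j₀) * (Kc δ * η * (eg (-δ) (c - j₀) * A c)) := by
        refine mul_le_mul_of_nonneg_left ?_ (eg_pos _ _).le
        exact hj₀.trans (mul_le_mul_of_nonneg_left h3 hK)
    _ = Kc δ * η * ((eg δ (k - j₀) * eg (-δ) (c - j₀)) * A c) := by ring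
    _ ≤ Kc δ * η * (eg δ (k - c) * A c) := by
        refine mul_le_mul_of_nonneg_left ?_ hK
        refine mul_le_mul_of_nonneg_right ?_ hc.le
        have h5 : eg δ (k - j₀) ≤ eg δ (k - c) * eg δ (c - j₀) := by
          have := eg_add_le hδ.le (k - c) (c - j₀)
          simpa using this
        calc eg δ (k - j₀) * eg (-δ) (c - j₀)
            ≤ (eg δ (k - c) * eg δ (c - j₀)) * eg (-δ) (c - j₀) :=
              mul_le_mul_of_nonneg_right h5 (eg_pos _ _).le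
          _ = eg δ (k - c) := by
              rw [mul_assoc, eg_neg_left, mul_inv_cancel₀ (eg_pos _ _).ne', mul_one]

end Vale.Agent.P267.H413
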