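import Mathlib

/-!
# Approximate eigenvectors of an invertible operator (package XT-PROF, helper413)

Generalises `Vale.Agent.P267.H378.exists_approx_eigenvector` from isometries to arbitrary
invertible bounded operators.
-/

namespace Vale.Agent.P267.H413

open Set Filter Topology Metric

variable {V : Type*} [NormedAddCommGroup V] [NormedSpace ℂ V] [CompleteSpace V]

/-- If `T - lam` is bounded below and `T - mu` is surjective for `mu` arbitrarily close to
`lam`, then `T - lam` is surjective. -/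
theorem surjective_of_bounded_below {T : V →L[ℂ] V} {lam : ℂ} {c : ℝ} (hc : 0 < c)
    (hb : ∀ v, c * ‖v‖ ≤ ‖T v - lam • v‖)
    (hs : ∀ δ > 0, ∃ mu : ℂ, ‖mu - lam‖ < δ ∧ Function.Surjective (fun v => T v - mu • v)) :
    Function.Surjective (fun v => T v - lam • v) := by
  let S : V →L[ℂ] V := T - lam • ContinuousLinearMap.id ℂ V
  have hS : ∀ v, S v = T v - lam • v := fun v => by simp [S]
  have hanti : AntilipschitzWith (Real.toNNReal c⁻¹) S := by
    refine AddMonoidHomClass.antilipschitz_of_bound S (fun v => ?_)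
    rw [hS, Real.coe_toNNReal _ (inv_nonneg.2 hc.le)]
    have := hb v
    rw [← div_eq_inv_mul, le_div_iff₀ hc]
    linarith
  have hcl : IsClosed (range S) := hanti.isClosed_range S.uniformContinuous
  have hdense : ∀ w, w ∈ closure (range S) := by
    intro w
    rw [Metric.mem_closure_iff]
    intro ε hε
    set δ : ℝ := min (c / 2) (ε * c / (2 * (‖w‖ + 1))) with hδ
    have hw1 : 0 < ‖w‖ + 1 := by positivity
    have hδ0 : 0 < δ := lt_min (by positivity) (by positivity)
    obtain ⟨mu, hmu, hsurj⟩ := hs δ hδ0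
    obtain ⟨v, hv⟩ := hsurj w
    simp only at hv
    have h1 : S v - w = (mu - lam) • v := by
      rw [hS, ← hv, sub_smul]; abel
    have h2 : c * ‖v‖ ≤ ‖w‖ + ‖mu - lam‖ * ‖v‖ := by
      have h3 : T v - lam • v = w + (mu - lam) • v := by
        rw [← hv, sub_smul]; abel
      calc c * ‖v‖ ≤ ‖T v - lam • v‖ := hb v
        _ = ‖w + (mu - lam) • v‖ := by rw [h3]
        _ ≤ ‖w‖ + ‖(mu - lam) • v‖ := norm_add_le _ _
        _ = ‖w‖ + ‖mu - lam‖ * ‖v‖ := by rw [norm_smul]
    have h4 : ‖mu - lam‖ ≤ c / 2 := hmu.le.trans (min_le_left _ _)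
    have h5 : ‖v‖ ≤ 2 * ‖w‖ / c := by
      rw [le_div_iff₀ hc]
      have : ‖mu - lam‖ * ‖v‖ ≤ c / 2 * ‖v‖ := mul_le_mul_of_nonneg_right h4 (norm_nonneg _)
      linarith
    refine ⟨S v, mem_range_self _, ?_⟩
    rw [dist_comm, dist_eq_norm, h1, norm_smul]
    have h6 : ‖mu - lam‖ < ε * c / (2 * (‖w‖ + 1)) := hmu.trans_le (min_le_right _ _)
    calc ‖mu - lam‖ * ‖v‖ ≤ ‖mu - lam‖ * (2 * ‖w‖ / c) :=
          mul_le_mul_of_nonneg_left h5 (norm_nonneg _)
      _ ≤ (ε * c / (2 * (‖w‖ + 1))) * (2 * ‖w‖ / c) :=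
          mul_le_mul_of_nonneg_right h6.le (by positivity)
      _ = ε * (‖w‖ / (‖w‖ + 1)) := by field_simp
      _ < ε * 1 := by
          refine mul_lt_mul_of_pos_left ?_ hε
          rw [div_lt_one hw1]; linarith
      _ = ε := mul_one ε
  intro w
  have := hdense w
  rw [hcl.closure_eq] at this
  obtain ⟨v, hv⟩ := this
  exact ⟨v, by rw [← hv, hS]⟩

/-- **Approximate eigenvectors** of an invertible bounded operator. -/
theorem exists_approx_eigenvector [Nontrivial V] (A : V →L[ℂ] V) (hA : IsUnit A) :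
    ∃ lam : ℂ, lam ≠ 0 ∧ ∀ ε > 0, ∃ v : V, ‖v‖ = 1 ∧ ‖A v - lam • v‖ < ε := by
  classical
  obtain ⟨lam, hlam, hrad⟩ := spectrum.exists_nnnorm_eq_spectralRadius (A := V →L[ℂ] V) A
  have hl0 : lam ≠ 0 := by
    rintro rfl
    rw [spectrum.mem_iff, map_zero, zero_sub] at hlam
    exact hlam hA.neg
  refine ⟨lam, hl0, ?_⟩
  by_contra hcon
  push Not at hcon
  obtain ⟨ε, hε, hv⟩ := hcon
  have hb : ∀ v, ε * ‖v‖ ≤ ‖A v - lam • v‖ := by
    intro v
    by_cases h0 : v = 0
    · simp [h0]
    have hn : ‖v‖ ≠ 0 := norm_ne_zero_iff.2 h0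
    have h1 := hv ((‖v‖⁻¹ : ℂ) • v) (by
      rw [norm_smul, norm_inv, Complex.norm_real, norm_norm, inv_mul_cancel₀ hn])
    rw [map_smul, smul_comm lam, ← smul_sub, norm_smul, norm_inv, Complex.norm_real,
      norm_norm, ← div_eq_inv_mul, le_div_iff₀ (norm_pos_iff.2 h0)] at h1
    exact h1
  have hlpos : 0 < ‖lam‖ := norm_pos_iff.2 hl0
  have hs : ∀ δ > 0, ∃ mu : ℂ, ‖mu - lam‖ < δ ∧
      Function.Surjective (fun v => A v - mu • v) := by
    intro δ hδ
    set t : ℝ := δ / (2 * ‖lam‖) with ht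
    have htpos : 0 < t := by positivity
    refine ⟨((1 + t : ℝ) : ℂ) * lam, ?_, ?_⟩
    · have : ((1 + t : ℝ) : ℂ) * lam - lam = ((t : ℝ) : ℂ) * lam := by
        push_cast; ring
      rw [this, norm_mul, Complex.norm_real, Real.norm_eq_abs, abs_of_pos htpos, ht]
      have : δ / (2 * ‖lam‖) * ‖lam‖ = δ / 2 := by field_simp
      rw [this]; linarith
    · have hnm : ((1 + t : ℝ) : ℂ) * lam ∉ spectrum ℂ A := by
        intro hmem
        have h1 : ((‖((1 + t : ℝ) : ℂ) * lam‖₊ : NNReal) : ENNReal) ≤ spectralRadius ℂ A :=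
          le_iSup₂ (f := fun (k : ℂ) (_ : k ∈ spectrum ℂ A) => ((‖k‖₊ : NNReal) : ENNReal))
            _ hmem
        rw [← hrad] at h1
        have h2 : ‖((1 + t : ℝ) : ℂ) * lam‖₊ ≤ ‖lam‖₊ := by exact_mod_cast h1
        have h3 : ‖((1 + t : ℝ) : ℂ) * lam‖ ≤ ‖lam‖ := h2
        rw [norm_mul, Complex.norm_real, Real.norm_eq_abs, abs_of_pos (by positivity)] at h3
        nlinarith
      rw [spectrum.notMem_iff] at hnm
      obtain ⟨⟨x, y, hxy, hyx⟩, hx⟩ := hnm
      simp only at hx
      intro w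
      refine ⟨-(y w), ?_⟩
      have h4 : x (y w) = w := by
        have := DFunLike.congr_fun hxy w
        simpa using this
      rw [hx] at h4
      have h5 : (((1 + t : ℝ) : ℂ) * lam) • y w - A (y w) = w := by
        simpa [Algebra.algebraMap_eq_smul_one] using h4
      show A (-(y w)) - (((1 + t : ℝ) : ℂ) * lam) • (-(y w)) = w
      rw [map_neg, smul_neg, neg_sub_neg, h5]
  have hsurj := surjective_of_bounded_below hε hb hs
  -- then `lam` is not in the spectrum
  rw [spectrum.mem_iff] at hlam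
  apply hlam
  have hinj : Function.Injective (algebraMap ℂ (V →L[ℂ] V) lam - A) := by
    rw [injective_iff_map_eq_zero]
    intro v hv0
    have h6 : A v - lam • v = 0 := by
      have : lam • v - A v = 0 := by simpa [Algebra.algebraMap_eq_smul_one] using hv0
      rw [← neg_sub, this, neg_zero]
    have h7 := hb v
    rw [h6, norm_zero] at h7
    have : ‖v‖ ≤ 0 := by
      by_contra h8
      have := mul_pos hε (not_le.1 h8)
      linarith
    exact norm_le_zero_iff.1 this
  have hsur : Function.Surjective (algebraMap ℂ (V →L[ℂ] V) lam - A) := by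
    intro w
    obtain ⟨v, hv1⟩ := hsurj (-w)
    refine ⟨v, ?_⟩
    have : lam • v - A v = w := by
      simp only at hv1
      rw [← neg_sub, hv1, neg_neg]
    simpa [Algebra.algebraMap_eq_smul_one] using this
  have hbij : Function.Bijective (algebraMap ℂ (V →L[ℂ] V) lam - A) := ⟨hinj, hsur⟩
  have := (ContinuousLinearMap.isUnit_iff_bijective
    (f := (algebraMap ℂ (V →L[ℂ] V) lam - A))).2 hbij
  exact this

end Vale.Agent.P267.H413
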