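import Vale.Agent.P267.H413.Eig

/-!
# Existence of Floquet solutions (package XT-PROF, helper413)

`V` is a space of holomorphic objects on an infinite cyclic cover, `α j` the sup norm over the
`j`-th slab, `T` the deck translation, `E` a weight with slopes between `exp a` and `exp b`.
If there is a nonzero object of growth `E` then there is a nonzero `u` with `T u = ν u`,
`a ≤ log |ν| ≤ b`.
-/

namespace Vale.Agent.P267.H413

open Filter Topology Real

universe u

/-- Space of sections with slab seminorms, translation and Montel's theorem. -/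
structure TrSp (V : Type u) [AddCommGroup V] [Module ℂ V] where
  /-- the slab seminorms -/
  α : ℤ → Seminorm ℂ V
  /-- the translation -/
  T : V ≃ₗ[ℂ] V
  sep : ∀ v, (∀ j, α j v = 0) → v = 0
  shift : ∀ j v, α j (T v) = α (j + 1) v
  montel : ∀ v : ℕ → V, (∀ j, ∃ C, ∀ n, α j (v n) ≤ C) →
    ∃ w, ∃ φ : ℕ → ℕ, StrictMono φ ∧ ∀ j, Tendsto (fun n => α j (v (φ n) - w)) atTop (𝓝 0)

/-- A weight with slopes between `exp a` and `exp b`. -/
structure Wt (a b : ℝ) where
  /-- the weight -/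
  E : ℤ → ℝ
  pos : ∀ j, 0 < E j
  up : ∀ j, E (j + 1) ≤ exp b * E j
  low : ∀ j, exp a * E j ≤ E (j + 1)

variable {V : Type u} [AddCommGroup V] [Module ℂ V] {a b : ℝ}

namespace TrSp

variable (F : TrSp V) (w : Wt a b)

lemma shift_symm (j : ℤ) (v : V) : F.α j (F.T.symm v) = F.α (j - 1) v := by
  have := F.shift (j - 1) (F.T.symm v)
  rw [LinearEquiv.apply_symm_apply, sub_add_cancel] at this
  exact this.symm

lemma shift_zpow (c j : ℤ) (v : V) : F.α j ((F.T ^ c : V ≃ₗ[ℂ] V) v) = F.α (j + c) v := by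
  induction c using Int.induction_on generalizing j v with
  | zero => simp
  | succ n ih =>
      rw [zpow_add, zpow_one, LinearEquiv.mul_apply, ih, F.shift]
      congr 1; ring_nf
  | pred n ih =>
      rw [zpow_sub, zpow_one, LinearEquiv.mul_apply, ih]
      change F.α _ (F.T.symm v) = _
      rw [F.shift_symm, show j + -(n : ℤ) - 1 = j + (-(n : ℤ) - 1) by ring]

/-- Sections of growth `E`. -/
def W : Submodule ℂ V where
  carrier := {v | ∃ C, ∀ j, F.α j v ≤ C * w.E j}
  add_mem' := by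
    rintro a b ⟨C, hC⟩ ⟨D, hD⟩
    refine ⟨C + D, fun j => (map_add_le_add _ _ _).trans ?_⟩
    rw [add_mul]
    exact add_le_add (hC j) (hD j)
  zero_mem' := ⟨0, fun j => by simp⟩
  smul_mem' := by
    rintro c v ⟨C, hC⟩
    refine ⟨‖c‖ * C, fun j => ?_⟩
    rw [map_smul_eq_mul, mul_assoc]
    exact mul_le_mul_of_nonneg_left (hC j) (norm_nonneg _)

lemma bdd (v : F.W w) : BddAbove (Set.range fun j : ℤ => (w.E j)⁻¹ * F.α j (v : V)) := by
  obtain ⟨C, hC⟩ := v.2
  refine ⟨C, ?_⟩
  rintro _ ⟨j, rfl⟩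
  have := mul_le_mul_of_nonneg_left (hC j) (inv_pos.2 (w.pos j)).le
  refine this.trans (le_of_eq ?_)
  field_simp [(w.pos j).ne']

/-- The norm on `W`. -/
noncomputable def nrm : AddGroupNorm (F.W w) where
  toFun v := ⨆ j : ℤ, (w.E j)⁻¹ * F.α j (v : V)
  map_zero' := by simp
  add_le' := by
    intro v v'
    apply ciSup_le
    intro j
    calc (w.E j)⁻¹ * F.α j ((v + v' : F.W w) : V)
        ≤ (w.E j)⁻¹ * (F.α j (v : V) + F.α j (v' : V)) :=
          mul_le_mul_of_nonneg_left (map_add_le_add _ _ _) (inv_pos.2 (w.pos j)).le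
      _ = (w.E j)⁻¹ * F.α j (v : V) + (w.E j)⁻¹ * F.α j (v' : V) := mul_add _ _ _
      _ ≤ _ := add_le_add (le_ciSup (F.bdd w v) j) (le_ciSup (F.bdd w v') j)
  neg' := by
    intro v
    congr 1
    funext j
    congr 1
    exact map_neg_eq_map (F.α j) _
  eq_zero_of_map_eq_zero' := by
    intro v hv
    have h1 : ∀ j, F.α j (v : V) = 0 := by
      intro j
      have h2 := le_ciSup (F.bdd w v) j
      rw [hv] at h2
      have h3 : F.α j (v : V) ≤ 0 := by
        by_contra h4
        have := mul_pos (inv_pos.2 (w.pos j)) (not_le.1 h4)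
        linarith
      exact le_antisymm h3 (apply_nonneg _ _)
    exact Subtype.ext (F.sep _ h1)

/-- `W` as a normed group. -/
noncomputable abbrev ngW : NormedAddCommGroup (F.W w) := (F.nrm w).toNormedAddCommGroup

lemma norm_def (v : F.W w) :
    (F.ngW w).toNorm.norm v = ⨆ j : ℤ, (w.E j)⁻¹ * F.α j (v : V) := rfl

lemma le_norm (v : F.W w) (j : ℤ) :
    F.α j (v : V) ≤ (F.ngW w).toNorm.norm v * w.E j := by
  rw [norm_def]
  have := mul_le_mul_of_nonneg_right (le_ciSup (F.bdd w v) j) (w.pos j).le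
  refine le_trans (le_of_eq ?_) this
  field_simp [(w.pos j).ne']

lemma norm_le (v : F.W w) {C : ℝ} (h : ∀ j, F.α j (v : V) ≤ C * w.E j) :
    (F.ngW w).toNorm.norm v ≤ C := by
  rw [norm_def]
  apply ciSup_le
  intro j
  have := mul_le_mul_of_nonneg_left (h j) (inv_pos.2 (w.pos j)).le
  refine this.trans (le_of_eq ?_)
  field_simp [(w.pos j).ne']

/-- `W` as a normed space. -/
noncomputable abbrev nsW : @NormedSpace ℂ (F.W w) _ (F.ngW w).toSeminormedAddCommGroup :=
  letI := F.ngW w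
  { norm_smul_le := by
      intro c v
      apply F.norm_le
      intro j
      have : F.α j ((c • v : F.W w) : V) = ‖c‖ * F.α j (v : V) := map_smul_eq_mul _ _ _
      rw [this, mul_assoc]
      exact mul_le_mul_of_nonneg_left (F.le_norm w v j) (norm_nonneg _) }

lemma complete : @CompleteSpace (F.W w) (F.ngW w).toUniformSpace := by
  let := F.ngW w
  let := F.nsW w
  apply Metric.complete_of_cauchySeq_tendsto
  intro v hv
  obtain ⟨R, hR⟩ := hv.norm_bddAbove
  have hR' : ∀ n, ‖v n‖ ≤ R := fun n => hR ⟨n, rfl⟩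
  have hbd : ∀ j n, F.α j (v n : V) ≤ R * w.E j := fun j n =>
    (F.le_norm w (v n) j).trans (mul_le_mul_of_nonneg_right (hR' n) (w.pos _).le)
  obtain ⟨x, φ, hφ, hw⟩ := F.montel (fun n => (v n : V)) (fun j => ⟨_, hbd j⟩)
  have hxW : x ∈ F.W w := by
    refine ⟨R, fun j => ?_⟩
    have h1 : ∀ n, F.α j x ≤ R * w.E j + F.α j ((v (φ n) : V) - x) := by
      intro n
      have h2 : F.α j x ≤ F.α j (v (φ n) : V) + F.α j ((v (φ n) : V) - x) := by
        have := map_sub_le_add (F.α j) (v (φ n) : V) ((v (φ n) : V) - x)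
        simpa using this
      exact h2.trans (add_le_add_left (hbd j _) _)
    have h3 := (hw j).const_add (R * w.E j)
    rw [add_zero] at h3
    exact ge_of_tendsto' h3 h1
  refine ⟨⟨x, hxW⟩, ?_⟩
  rw [Metric.tendsto_atTop]
  intro ε hε
  obtain ⟨M, hM⟩ := Metric.cauchySeq_iff.1 hv (ε / 2) (by positivity)
  refine ⟨M, fun n hn => ?_⟩
  rw [dist_eq_norm]
  refine lt_of_le_of_lt (F.norm_le w (v n - ⟨x, hxW⟩) (C := ε / 2) (fun j => ?_)) (by linarith)
  have h1 : ∀ᶠ m in atTop, F.α j ((v n : V) - x) ≤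
      ε / 2 * w.E j + F.α j ((v (φ m) : V) - x) := by
    filter_upwards [eventually_ge_atTop M] with m hm
    have h2 : F.α j ((v n : V) - x) ≤
        F.α j ((v n : V) - (v (φ m) : V)) + F.α j ((v (φ m) : V) - x) := by
      have := map_add_le_add (F.α j) ((v n : V) - (v (φ m) : V)) ((v (φ m) : V) - x)
      simpa using this
    refine h2.trans (add_le_add_left ?_ _)
    have h3 : ‖v n - v (φ m)‖ < ε / 2 := by
      rw [← dist_eq_norm]; exact hM n hn _ (hm.trans (hφ.id_le m))
    have h4 := F.le_norm w (v n - v (φ m)) j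
    exact h4.trans (mul_le_mul_of_nonneg_right h3.le (w.pos _).le)
  have h5 := (hw j).const_add (ε / 2 * w.E j)
  rw [add_zero] at h5
  exact ge_of_tendsto h5 h1

lemma T_le {v : V} {C : ℝ} (hC : ∀ j, F.α j v ≤ C * w.E j) (j : ℤ) :
    F.α j (F.T v) ≤ (exp b * C) * w.E j := by
  have hC0 : 0 ≤ C := by
    have := (apply_nonneg (F.α 0) v).trans (hC 0)
    exact nonneg_of_mul_nonneg_left this (w.pos 0)
  rw [F.shift]
  refine (hC (j + 1)).trans ?_
  calc C * w.E (j + 1) ≤ C * (exp b * w.E j) := mul_le_mul_of_nonneg_left (w.up j) hC0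
    _ = _ := by ring

lemma Ts_le {v : V} {C : ℝ} (hC : ∀ j, F.α j v ≤ C * w.E j) (j : ℤ) :
    F.α j (F.T.symm v) ≤ (exp (-a) * C) * w.E j := by
  have hC0 : 0 ≤ C := by
    have := (apply_nonneg (F.α 0) v).trans (hC 0)
    exact nonneg_of_mul_nonneg_left this (w.pos 0)
  rw [F.shift_symm]
  refine (hC (j - 1)).trans ?_
  have h1 := w.low (j - 1)
  rw [sub_add_cancel] at h1
  have h2 : w.E (j - 1) ≤ exp (-a) * w.E j := by
    rw [Real.exp_neg, ← div_eq_inv_mul, le_div_iff₀ (exp_pos _), mul_comm]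
    exact h1
  calc C * w.E (j - 1) ≤ C * (exp (-a) * w.E j) := mul_le_mul_of_nonneg_left h2 hC0
    _ = _ := by ring

/-- Crude two-sided bound for the weight. -/
lemma E_le (w : Wt a b) (j k : ℤ) : w.E (j + k) ≤ exp ((|a| + |b|) * |(j : ℝ)|) * w.E k := by
  have hup : ∀ (n : ℕ) (k : ℤ), w.E (k + n) ≤ exp ((|a| + |b|) * n) * w.E k := by
    intro n
    induction n with
    | zero => intro k; simp
    | succ n ih =>
        intro k
        have h1 := w.up (k + n)
        have h2 : exp b ≤ exp (|a| + |b|) :=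
          exp_le_exp.2 ((le_abs_self b).trans (by linarith [abs_nonneg a]))
        calc w.E (k + ((n + 1 : ℕ) : ℤ)) = w.E (k + n + 1) := by push_cast; ring_nf
          _ ≤ exp b * w.E (k + n) := h1
          _ ≤ exp (|a| + |b|) * (exp ((|a| + |b|) * n) * w.E k) :=
              mul_le_mul h2 (ih k) (w.pos _).le (exp_pos _).le
          _ = _ := by
              rw [← mul_assoc, ← Real.exp_add]
              congr 2
              push_cast
              ring
  have hlow : ∀ (n : ℕ) (k : ℤ), w.E (k - n) ≤ exp ((|a| + |b|) * n) * w.E k := by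
    intro n
    induction n with
    | zero => intro k; simp
    | succ n ih =>
        intro k
        have h1 := w.low (k - n - 1)
        rw [sub_add_cancel] at h1
        have h3 : w.E (k - n - 1) ≤ exp (-a) * w.E (k - n) := by
          rw [Real.exp_neg, ← div_eq_inv_mul, le_div_iff₀ (exp_pos _), mul_comm]
          exact h1
        have h2 : exp (-a) ≤ exp (|a| + |b|) :=
          exp_le_exp.2 ((neg_le_abs a).trans (by linarith [abs_nonneg b]))
        calc w.E (k - ((n + 1 : ℕ) : ℤ)) = w.E (k - n - 1) := by push_cast; ring_nf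
          _ ≤ exp (-a) * w.E (k - n) := h3
          _ ≤ exp (|a| + |b|) * (exp ((|a| + |b|) * n) * w.E k) :=
              mul_le_mul h2 (ih k) (w.pos _).le (exp_pos _).le
          _ = _ := by
              rw [← mul_assoc, ← Real.exp_add]
              congr 2
              push_cast
              ring
  rcases le_total 0 j with hj | hj
  · obtain ⟨n, rfl⟩ := Int.eq_ofNat_of_zero_le hj
    have := hup n k
    rw [add_comm] at this
    simpa using this
  · obtain ⟨n, hn⟩ := Int.eq_ofNat_of_zero_le (neg_nonneg.2 hj)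
    have hj' : j = -(n : ℤ) := by rw [← hn]; ring
    subst hj'
    have := hlow n k
    have h2 : k - (n : ℤ) = -(n : ℤ) + k := by ring
    rw [h2] at this
    simpa using this

/-- **Floquet solutions exist** as soon as there is a nonzero section of growth `E`. -/
theorem exists_floquet {v : V} (hv0 : v ≠ 0) {C : ℝ} (hv : ∀ j, F.α j v ≤ C * w.E j) :
    ∃ ν : ℂ, ν ≠ 0 ∧ ∃ x : V, x ≠ 0 ∧ F.T x = ν • x ∧ a ≤ log ‖ν‖ ∧ log ‖ν‖ ≤ b := by
  let := F.ngW w
  let := F.nsW w
  have := F.complete w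
  have hvW : v ∈ F.W w := ⟨C, hv⟩
  have : Nontrivial (F.W w) := ⟨⟨⟨v, hvW⟩, 0, fun h => hv0 (congrArg Subtype.val h)⟩⟩
  let A₀ : F.W w →ₗ[ℂ] F.W w :=
    { toFun := fun v => ⟨F.T v, by
        obtain ⟨C, hC⟩ := v.2
        exact ⟨_, F.T_le w hC⟩⟩
      map_add' := fun a b => Subtype.ext (map_add F.T _ _)
      map_smul' := fun c a => Subtype.ext (map_smul F.T _ _) }
  let B₀ : F.W w →ₗ[ℂ] F.W w :=
    { toFun := fun v => ⟨F.T.symm v, by
        obtain ⟨C, hC⟩ := v.2
        exact ⟨_, F.Ts_le w hC⟩⟩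
      map_add' := fun a b => Subtype.ext (map_add F.T.symm _ _)
      map_smul' := fun c a => Subtype.ext (map_smul F.T.symm _ _) }
  have hA₀ : ∀ v : F.W w, ‖A₀ v‖ ≤ exp b * ‖v‖ := by
    intro v
    apply F.norm_le
    exact F.T_le w (F.le_norm w v)
  have hB₀ : ∀ v : F.W w, ‖B₀ v‖ ≤ exp (-a) * ‖v‖ := by
    intro v
    apply F.norm_le
    exact F.Ts_le w (F.le_norm w v)
  let A : F.W w →L[ℂ] F.W w := A₀.mkContinuous (exp b) hA₀
  let B : F.W w →L[ℂ] F.W w := B₀.mkContinuous (exp (-a)) hB₀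
  have hAB : A * B = 1 := by
    ext v
    change F.T (F.T.symm v) = v
    exact F.T.apply_symm_apply _
  have hBA : B * A = 1 := by
    ext v
    change F.T.symm (F.T v) = v
    exact F.T.symm_apply_apply _
  have hu : IsUnit A := ⟨⟨A, B, hAB, hBA⟩, rfl⟩
  obtain ⟨lam, hlam, happ⟩ := exists_approx_eigenvector A hu
  have hlam' : 0 < ‖lam‖ := norm_pos_iff.2 hlam
  -- bounds for `lam`
  have hup : ‖lam‖ ≤ exp b := by
    by_contra hcon
    obtain ⟨x, hx1, hx2⟩ := happ (‖lam‖ - exp b) (by linarith [not_le.1 hcon])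
    have h1 : ‖lam • x‖ = ‖lam‖ := by rw [norm_smul, hx1, mul_one]
    have h2 : ‖A x‖ ≤ exp b := by
      have := hA₀ x
      rw [hx1, mul_one] at this
      exact this
    have h3 : ‖lam • x‖ - ‖A x‖ ≤ ‖A x - lam • x‖ := by
      rw [norm_sub_rev]; exact norm_sub_norm_le _ _
    linarith
  have hlow : exp a ≤ ‖lam‖ := by
    by_contra hcon
    obtain ⟨x, hx1, hx2⟩ := happ (exp a - ‖lam‖) (by linarith [not_le.1 hcon])
    have h1 : ‖lam • x‖ = ‖lam‖ := by rw [norm_smul, hx1, mul_one]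
    have h2 : exp a ≤ ‖A x‖ := by
      have h4 := hB₀ (A x)
      have h5 : B₀ (A x) = x := DFunLike.congr_fun hBA x
      rw [h5, hx1, Real.exp_neg, ← div_eq_inv_mul, le_div_iff₀ (exp_pos _), one_mul] at h4
      exact h4
    have h3 : ‖A x‖ - ‖lam • x‖ ≤ ‖A x - lam • x‖ := norm_sub_norm_le _ _
    linarith
  refine ⟨lam, hlam, ?_⟩
  have hseq : ∀ n : ℕ, ∃ x : F.W w, ‖x‖ = 1 ∧ ‖A x - lam • x‖ < 1 / (n + 1 : ℝ) :=
    fun n => happ _ (by positivity)
  choose x hx1 hx2 using hseq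
  have hc : ∀ n, ∃ c : ℤ, 1 / 2 < (w.E c)⁻¹ * F.α c (x n : V) := by
    intro n
    apply exists_lt_of_lt_ciSup
    have : (⨆ j : ℤ, (w.E j)⁻¹ * F.α j (x n : V)) = 1 := hx1 n
    rw [this]; norm_num
  choose c hc using hc
  -- recentre
  set G : ℤ → ℝ := fun j => exp ((|a| + |b|) * |(j : ℝ)|) with hG
  have hGpos : ∀ j, 0 < G j := fun j => exp_pos _
  let y : ℕ → V := fun n => (((w.E (c n))⁻¹ : ℝ) : ℂ) • ((F.T ^ (c n) : V ≃ₗ[ℂ] V) (x n : V))
  have hy : ∀ n j, F.α j (y n) = (w.E (c n))⁻¹ * F.α (j + c n) (x n : V) := by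
    intro n j
    simp only [y]
    rw [map_smul_eq_mul, F.shift_zpow, Complex.norm_real, Real.norm_eq_abs,
      abs_of_pos (inv_pos.2 (w.pos _))]
  have hEr : ∀ n j, (w.E (c n))⁻¹ * w.E (j + c n) ≤ G j := by
    intro n j
    rw [← div_eq_inv_mul, div_le_iff₀ (w.pos _)]
    exact E_le w j (c n)
  have hyb : ∀ n j, F.α j (y n) ≤ G j := by
    intro n j
    rw [hy]
    have h1 := F.le_norm w (x n) (j + c n)
    have h2 : (F.ngW w).toNorm.norm (x n) = 1 := hx1 n
    rw [h2, one_mul] at h1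
    exact (mul_le_mul_of_nonneg_left h1 (inv_pos.2 (w.pos _)).le).trans (hEr n j)
  have hcomm : ∀ n, F.T (y n) - lam • y n =
      (((w.E (c n))⁻¹ : ℝ) : ℂ) •
        ((F.T ^ (c n) : V ≃ₗ[ℂ] V) (F.T (x n : V) - lam • (x n : V))) := by
    intro n
    simp only [y, map_smul, map_sub, smul_sub]
    congr 1
    · congr 1
      rw [← LinearEquiv.mul_apply, ← LinearEquiv.mul_apply, ← zpow_one_add, ← zpow_add_one,
        add_comm]
    · rw [smul_comm]
  have hys : ∀ n j, F.α j (F.T (y n) - lam • y n) ≤ 1 / (n + 1 : ℝ) * G j := by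
    intro n j
    rw [hcomm, map_smul_eq_mul, F.shift_zpow, Complex.norm_real, Real.norm_eq_abs,
      abs_of_pos (inv_pos.2 (w.pos _))]
    have h1 := F.le_norm w (A (x n) - lam • x n) (j + c n)
    have h2 : F.α (j + c n) (F.T (x n : V) - lam • (x n : V)) ≤
        1 / (n + 1 : ℝ) * w.E (j + c n) := by
      refine h1.trans ?_
      exact mul_le_mul_of_nonneg_right (hx2 n).le (w.pos _).le
    calc (w.E (c n))⁻¹ * F.α (j + c n) (F.T (x n : V) - lam • (x n : V))
        ≤ (w.E (c n))⁻¹ * (1 / (n + 1 : ℝ) * w.E (j + c n)) :=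
          mul_le_mul_of_nonneg_left h2 (inv_pos.2 (w.pos _)).le
      _ = 1 / (n + 1 : ℝ) * ((w.E (c n))⁻¹ * w.E (j + c n)) := by ring
      _ ≤ _ := mul_le_mul_of_nonneg_left (hEr n j) (by positivity)
  obtain ⟨z, φ, hφ, hz⟩ := F.montel y (fun j => ⟨G j, fun n => hyb n j⟩)
  have hTz : F.T z = lam • z := by
    rw [← sub_eq_zero]
    apply F.sep
    intro j
    apply le_antisymm _ (apply_nonneg _ _)
    have h1 : ∀ n, F.α j (F.T z - lam • z) ≤
        F.α (j + 1) (y (φ n) - z) + ‖lam‖ * F.α j (y (φ n) - z) +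
          1 / ((φ n : ℕ) + 1 : ℝ) * G j := by
      intro n
      have h2 : F.T z - lam • z = (F.T (y (φ n)) - lam • y (φ n)) -
          (F.T (y (φ n) - z) - lam • (y (φ n) - z)) := by
        simp only [map_sub, smul_sub]; abel
      rw [h2]
      refine (map_sub_le_add _ _ _).trans ?_
      have h3 := hys (φ n) j
      have h4 : F.α j (F.T (y (φ n) - z) - lam • (y (φ n) - z)) ≤
          F.α (j + 1) (y (φ n) - z) + ‖lam‖ * F.α j (y (φ n) - z) := by
        refine (map_sub_le_add _ _ _).trans (le_of_eq ?_)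
        rw [F.shift, map_smul_eq_mul]
      linarith
    have h5 : Tendsto (fun n => F.α (j + 1) (y (φ n) - z) + ‖lam‖ * F.α j (y (φ n) - z) +
          1 / ((φ n : ℕ) + 1 : ℝ) * G j) atTop (𝓝 (0 + ‖lam‖ * 0 + 0 * G j)) := by
      refine ((hz (j + 1)).add ((hz j).const_mul _)).add (Tendsto.mul_const _ ?_)
      exact (tendsto_one_div_add_atTop_nhds_zero_nat (𝕜 := ℝ)).comp hφ.tendsto_atTop
    simp only [mul_zero, zero_mul, add_zero] at h5
    exact ge_of_tendsto' h5 h1
  refine ⟨z, ?_, hTz, ?_, ?_⟩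
  · rintro rfl
    have h6 : ∀ n, 1 / 2 ≤ F.α 0 (y (φ n) - 0) := by
      intro n
      rw [sub_zero, hy, zero_add]
      exact (hc _).le
    have h7 := ge_of_tendsto' (hz 0) h6
    norm_num at h7
  · rw [Real.le_log_iff_exp_le hlam']; exact hlow
  · rw [Real.log_le_iff_le_exp hlam']; exact hup

end TrSp

end Vale.Agent.P267.H413
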