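import Vale.Agent.P267.H413.Center

/-!
# Uniform degree-0 estimates from the absence of bad sequences (package XT-PROF, helper413)
-/

namespace Vale.Agent.P267.H413

open Filter Topology Real

/-- A weight together with the slab profiles of a section `u` and of `∂̄u`. -/
structure Prof where
  /-- the weight -/
  w : ℤ → ℝ
  /-- the profile of `u` -/
  a : ℤ → ℝ
  /-- the profile of `∂̄u` -/
  b : ℤ → ℝ

/-- `U` is a family of profiles: positive weights, nonnegative profiles, closed under scaling. -/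
structure IsFam (U : Set Prof) : Prop where
  w_pos : ∀ p ∈ U, ∀ j, 0 < p.w j
  a_nonneg : ∀ p ∈ U, ∀ j, 0 ≤ p.a j
  b_nonneg : ∀ p ∈ U, ∀ j, 0 ≤ p.b j
  scale : ∀ p ∈ U, ∀ t : ℝ, 0 < t → Prof.mk p.w (fun j => t * p.a j) (fun j => t * p.b j) ∈ U

/-- A bad sequence: recentred and normalised profiles with growth controlled by the weight
(up to `exp (δ|j|)`) while the profile of `∂̄u` tends to `0`. -/
def Bad (U : Set Prof) (δ : ℝ) : Prop :=
  ∃ (p : ℕ → Prof) (c : ℕ → ℤ) (ε : ℕ → ℝ), (∀ n, p n ∈ U) ∧ (∀ n, 0 ≤ ε n) ∧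
    Tendsto ε atTop (𝓝 0) ∧ (∀ n, (p n).a (c n) = 1) ∧
    (∀ n j, (p n).w (c n + j) * (p n).a (c n + j) ≤ eg δ j * (p n).w (c n)) ∧
    (∀ n j, (p n).w (c n + j) * (p n).b (c n + j) ≤ ε n * (eg δ j * (p n).w (c n)))

/-- One bad element with parameter `ε` from a good centre. -/
lemma exists_normalised {U : Set Prof} (hU : IsFam U) {p : Prof} (hp : p ∈ U) {δ ε : ℝ}
    (c : ℤ) (hc : 0 < p.w c * p.a c)
    (h1 : ∀ k, p.w k * p.a k ≤ eg δ (k - c) * (p.w c * p.a c))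
    (h2 : ∀ k, p.w k * p.b k ≤ ε * (eg δ (k - c) * (p.w c * p.a c))) :
    ∃ q ∈ U, q.a c = 1 ∧ (∀ j, q.w (c + j) * q.a (c + j) ≤ eg δ j * q.w c) ∧
      ∀ j, q.w (c + j) * q.b (c + j) ≤ ε * (eg δ j * q.w c) := by
  have hac : 0 < p.a c := by
    have h0 := hU.w_pos p hp c
    exact (mul_pos_iff_of_pos_left h0).1 hc
  refine ⟨_, hU.scale p hp (p.a c)⁻¹ (inv_pos.2 hac), ?_, fun j => ?_, fun j => ?_⟩
  · exact inv_mul_cancel₀ hac.ne'
  · have := h1 (c + j)
    rw [add_sub_cancel_left] at this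
    calc p.w (c + j) * ((p.a c)⁻¹ * p.a (c + j)) = (p.a c)⁻¹ * (p.w (c + j) * p.a (c + j)) := by
          ring
      _ ≤ (p.a c)⁻¹ * (eg δ j * (p.w c * p.a c)) :=
          mul_le_mul_of_nonneg_left this (inv_pos.2 hac).le
      _ = eg δ j * p.w c := by field_simp
  · have := h2 (c + j)
    rw [add_sub_cancel_left] at this
    calc p.w (c + j) * ((p.a c)⁻¹ * p.b (c + j)) = (p.a c)⁻¹ * (p.w (c + j) * p.b (c + j)) := by
          ring
      _ ≤ (p.a c)⁻¹ * (ε * (eg δ j * (p.w c * p.a c))) :=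
          mul_le_mul_of_nonneg_left this (inv_pos.2 hac).le
      _ = ε * (eg δ j * p.w c) := by field_simp

lemma tendsto_const_div_nat (K : ℝ) : Tendsto (fun n : ℕ => K / (n + 1 : ℝ)) atTop (𝓝 0) := by
  have := tendsto_one_div_add_atTop_nhds_zero_nat (𝕜 := ℝ)
  have h2 := this.const_mul K
  simpa [div_eq_mul_inv] using h2

/-- **UNIF**, sup version. -/
theorem unif_sup {U : Set Prof} (hU : IsFam U) {δ : ℝ} (hδ : 0 < δ) (hbad : ¬ Bad U δ) :
    ∃ C, 0 < C ∧ ∀ p ∈ U, BddAbove (Set.range fun j => p.w j * p.a j) →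
      ∀ M, (∀ j, p.w j * p.b j ≤ M) → ∀ j, p.w j * p.a j ≤ C * M := by
  by_contra hcon
  push Not at hcon
  apply hbad
  have hstep : ∀ n : ℕ, ∃ (q : Prof) (c : ℤ), q ∈ U ∧ q.a c = 1 ∧
      (∀ j, q.w (c + j) * q.a (c + j) ≤ eg δ j * q.w c) ∧
      ∀ j, q.w (c + j) * q.b (c + j) ≤ (2 / (n + 1 : ℝ)) * (eg δ j * q.w c) := by
    intro n
    have hn : (0 : ℝ) < n + 1 := by positivity
    obtain ⟨p, hp, hbdd, M, hM, j₁, hj₁⟩ := hcon (n + 1) hn
    have hM0 : 0 ≤ M :=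
      (mul_nonneg (hU.w_pos p hp 0).le (hU.b_nonneg p hp 0)).trans (hM 0)
    have hpos : 0 < p.w j₁ * p.a j₁ := lt_of_le_of_lt (mul_nonneg hn.le hM0) hj₁
    have hAM : ∀ j, p.w j * p.a j ≤ ⨆ j, p.w j * p.a j := fun j => le_ciSup hbdd j
    have hB : ∀ k, p.w k * p.b k ≤ (1 / (n + 1 : ℝ)) * ⨆ j, p.w j * p.a j := by
      intro k
      rw [one_div, ← div_eq_inv_mul, le_div_iff₀ hn]
      calc p.w k * p.b k * (n + 1) ≤ M * (n + 1) := mul_le_mul_of_nonneg_right (hM k) hn.le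
        _ = (n + 1) * M := mul_comm _ _
        _ ≤ p.w j₁ * p.a j₁ := hj₁.le
        _ ≤ _ := hAM j₁
    obtain ⟨c, hc, h1, h2⟩ := center_sup (A := fun j => p.w j * p.a j)
      (B := fun j => p.w j * p.b j)
      (fun j => mul_nonneg (hU.w_pos p hp j).le (hU.a_nonneg p hp j)) hAM hpos
      (η := 1 / (n + 1 : ℝ)) (by positivity) hδ hB
    obtain ⟨q, hq, h3, h4, h5⟩ := exists_normalised hU hp (ε := 2 / (n + 1 : ℝ)) c hc h1
      (fun k => by
        have := h2 k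
        calc p.w k * p.b k ≤ _ := this
          _ = _ := by ring)
    exact ⟨q, c, hq, h3, h4, h5⟩
  choose q c hq h3 h4 h5 using hstep
  exact ⟨q, c, fun n => 2 / (n + 1 : ℝ), hq, fun n => by positivity, tendsto_const_div_nat 2,
    h3, h4, h5⟩

/-- **UNIF**, `ℓ¹` version. -/
theorem unif_l1 {U : Set Prof} (hU : IsFam U) {δ : ℝ} (hδ : 0 < δ) (hbad : ¬ Bad U δ) :
    ∃ C, 0 < C ∧ ∀ p ∈ U, Summable (fun j => p.w j * p.a j) →
      Summable (fun j => p.w j * p.b j) →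
      ∑' j, p.w j * p.a j ≤ C * ∑' j, p.w j * p.b j := by
  by_contra hcon
  push Not at hcon
  apply hbad
  have hstep : ∀ n : ℕ, ∃ (q : Prof) (c : ℤ), q ∈ U ∧ q.a c = 1 ∧
      (∀ j, q.w (c + j) * q.a (c + j) ≤ eg δ j * q.w c) ∧
      ∀ j, q.w (c + j) * q.b (c + j) ≤ (Kc δ / (n + 1 : ℝ)) * (eg δ j * q.w c) := by
    intro n
    have hn : (0 : ℝ) < n + 1 := by positivity
    obtain ⟨p, hp, hsA, hsB, hlt⟩ := hcon (n + 1) hn
    have hA0 : ∀ j, 0 ≤ p.w j * p.a j :=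
      fun j => mul_nonneg (hU.w_pos p hp j).le (hU.a_nonneg p hp j)
    have hB0 : ∀ j, 0 ≤ p.w j * p.b j :=
      fun j => mul_nonneg (hU.w_pos p hp j).le (hU.b_nonneg p hp j)
    have hBs : 0 ≤ ∑' j, p.w j * p.b j := tsum_nonneg hB0
    have hAs : 0 < ∑' j, p.w j * p.a j := lt_of_le_of_lt (mul_nonneg hn.le hBs) hlt
    have hex : ∃ j₁, 0 < p.w j₁ * p.a j₁ := by
      by_contra h
      push Not at h
      have : ∑' j, p.w j * p.a j ≤ 0 := tsum_nonpos h
      linarith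
    obtain ⟨j₁, hj₁⟩ := hex
    have hle : ∑' j, p.w j * p.b j ≤ (1 / (n + 1 : ℝ)) * ∑' j, p.w j * p.a j := by
      rw [one_div, ← div_eq_inv_mul, le_div_iff₀ hn, mul_comm]
      exact hlt.le
    obtain ⟨c, hc, h1, h2⟩ := center_l1 (A := fun j => p.w j * p.a j)
      (B := fun j => p.w j * p.b j) hA0 hB0 hsA hsB hj₁ (η := 1 / (n + 1 : ℝ))
      (by positivity) hδ hle
    obtain ⟨q, hq, h3, h4, h5⟩ := exists_normalised hU hp (ε := Kc δ / (n + 1 : ℝ)) c hc h1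
      (fun k => by
        have := h2 k
        calc p.w k * p.b k ≤ _ := this
          _ = _ := by ring)
    exact ⟨q, c, hq, h3, h4, h5⟩
  choose q c hq h3 h4 h5 using hstep
  exact ⟨q, c, fun n => Kc δ / (n + 1 : ℝ), hq, fun n => by have := Kc_pos hδ; positivity,
    tendsto_const_div_nat _, h3, h4, h5⟩

/-- Normal families: recentred sequences with locally bounded `a` and `b → 0` have a
subsequence converging, together with the normalised weights, to an element of `H`. -/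
def NF (U : Set Prof) (H : Set ((ℤ → ℝ) × (ℤ → ℝ))) : Prop :=
  ∀ (p : ℕ → Prof) (c : ℕ → ℤ), (∀ n, p n ∈ U) →
    (∀ j, ∃ C, ∀ n, (p n).a (c n + j) ≤ C) →
    (∀ j, Tendsto (fun n => (p n).b (c n + j)) atTop (𝓝 0)) →
    ∃ h ∈ H, ∃ φ : ℕ → ℕ, StrictMono φ ∧
      (∀ j, Tendsto (fun n => (p (φ n)).w (c (φ n)) / (p (φ n)).w (c (φ n) + j)) atTop
        (𝓝 (h.1 j))) ∧
      (∀ j, Tendsto (fun n => (p (φ n)).a (c (φ n) + j)) atTop (𝓝 (h.2 j)))

/-- Weights with increments bounded by `exp (Λ |·|)`, uniformly in the family. -/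
def Slow (U : Set Prof) (Λ : ℝ) : Prop :=
  ∀ p ∈ U, ∀ j k : ℤ, p.w j ≤ eg Λ (k - j) * p.w k

/-- (NF) and vanishing of the limits exclude bad sequences. -/
theorem not_bad_of_NF {U : Set Prof} (hU : IsFam U) {Λ : ℝ} (hs : Slow U Λ)
    {H : Set ((ℤ → ℝ) × (ℤ → ℝ))} (hNF : NF U H) {δ : ℝ}
    (hvan : ∀ h ∈ H, (∀ j, h.2 j ≤ eg δ j * h.1 j) → h.2 0 ≠ 1) : ¬ Bad U δ := by
  rintro ⟨p, c, ε, hp, hε0, hε, h1, h2, h3⟩
  have hw : ∀ n j, 0 < (p n).w j := fun n j => hU.w_pos _ (hp n) j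
  have hratio : ∀ n j, (p n).w (c n) / (p n).w (c n + j) ≤ eg Λ j := by
    intro n j
    rw [div_le_iff₀ (hw n _)]
    have := hs _ (hp n) (c n) (c n + j)
    rwa [add_sub_cancel_left] at this
  have ha : ∀ n j, (p n).a (c n + j) ≤ eg δ j * ((p n).w (c n) / (p n).w (c n + j)) := by
    intro n j
    rw [← mul_div_assoc, le_div_iff₀ (hw n _), mul_comm]
    exact h2 n j
  have hb : ∀ n j, (p n).b (c n + j) ≤
      ε n * (eg δ j * ((p n).w (c n) / (p n).w (c n + j))) := by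
    intro n j
    rw [← mul_div_assoc, ← mul_div_assoc, le_div_iff₀ (hw n _), mul_comm]
    exact h3 n j
  obtain ⟨h, hH, φ, hφ, ht1, ht2⟩ := hNF p c hp
    (fun j => ⟨eg δ j * eg Λ j, fun n => (ha n j).trans
      (mul_le_mul_of_nonneg_left (hratio n j) (eg_pos _ _).le)⟩)
    (fun j => by
      have h4 : Tendsto (fun n => ε n * (eg δ j * eg Λ j)) atTop (𝓝 0) := by
        simpa using hε.mul_const (eg δ j * eg Λ j)
      refine squeeze_zero (fun n => hU.b_nonneg _ (hp n) _) (fun n => ?_) h4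
      refine (hb n j).trans (mul_le_mul_of_nonneg_left ?_ (hε0 n))
      exact mul_le_mul_of_nonneg_left (hratio n j) (eg_pos _ _).le)
  refine hvan h hH (fun j => ?_) ?_
  · exact le_of_tendsto_of_tendsto' (ht2 j) ((ht1 j).const_mul (eg δ j)) (fun n => ha _ j)
  · have h5 := ht2 0
    simp only [add_zero, h1] at h5
    exact (tendsto_nhds_unique h5 tendsto_const_nhds)

end Vale.Agent.P267.H413
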