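import Vale.Agent.P267.H413.Center
import Vale.Agent.P267.H413.Eig

/-!
# Vanishing of holomorphic sections of exponential growth (package XT-PROF, helper413)

`V` is the space of holomorphic sections (of `K`) on the infinite cyclic cover, `α j` the sup
norm over the `j`-th slab, `T` the deck translation.
-/

namespace Vale.Agent.P267.H413

open Filter Topology Real

universe u

/-- The abstract structure used for (U1). -/
structure Flq (V : Type u) [AddCommGroup V] [Module ℂ V] where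
  /-- the slab seminorms -/
  α : ℤ → Seminorm ℂ V
  /-- the translation -/
  T : V ≃ₗ[ℂ] V
  sep : ∀ v, (∀ j, α j v = 0) → v = 0
  shift : ∀ j v, α j (T v) = α (j + 1) v
  montel : ∀ v : ℕ → V, (∀ j, ∃ C, ∀ n, α j (v n) ≤ C) →
    ∃ w, ∃ φ : ℕ → ℕ, StrictMono φ ∧ ∀ j, Tendsto (fun n => α j (v (φ n) - w)) atTop (𝓝 0)
  nofl : ∀ (v : V) (lam : ℂ), lam ≠ 0 → T v = lam • v → v = 0

variable {V : Type u} [AddCommGroup V] [Module ℂ V]

namespace Flq

variable (F : Flq V)

lemma shift_symm (j : ℤ) (v : V) : F.α j (F.T.symm v) = F.α (j - 1) v := by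
  have := F.shift (j - 1) (F.T.symm v)
  rw [LinearEquiv.apply_symm_apply, sub_add_cancel] at this
  exact this.symm

lemma shift_zpow (c j : ℤ) (v : V) : F.α j ((F.T ^ c : V ≃ₗ[ℂ] V) v) = F.α (j + c) v := by
  induction c using Int.induction_on generalizing j v with
  | zero => simp
  | succ n ih =>
      rw [zpow_add, zpow_one, LinearEquiv.mul_apply, ih, F.shift]
      congr 1; ring_nf
  | pred n ih =>
      rw [zpow_sub, zpow_one, LinearEquiv.mul_apply, ih]
      change F.α _ (F.T.symm v) = _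
      rw [F.shift_symm, show j + -(n : ℤ) - 1 = j + (-(n : ℤ) - 1) by ring]

/-- Sections of growth `exp (N |j|)`. -/
def W (N : ℝ) : Submodule ℂ V where
  carrier := {v | ∃ C, ∀ j, F.α j v ≤ C * eg N j}
  add_mem' := by
    rintro a b ⟨C, hC⟩ ⟨D, hD⟩
    refine ⟨C + D, fun j => (map_add_le_add _ _ _).trans ?_⟩
    rw [add_mul]
    exact add_le_add (hC j) (hD j)
  zero_mem' := ⟨0, fun j => by simp⟩
  smul_mem' := by
    rintro c v ⟨C, hC⟩
    refine ⟨‖c‖ * C, fun j => ?_⟩
    rw [map_smul_eq_mul, mul_assoc]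
    exact mul_le_mul_of_nonneg_left (hC j) (norm_nonneg _)

lemma bdd {N : ℝ} (v : F.W N) : BddAbove (Set.range fun j : ℤ => eg (-N) j * F.α j (v : V)) := by
  obtain ⟨C, hC⟩ := v.2
  refine ⟨C, ?_⟩
  rintro _ ⟨j, rfl⟩
  have := mul_le_mul_of_nonneg_left (hC j) (eg_pos (-N) j).le
  refine this.trans (le_of_eq ?_)
  rw [eg_neg_left]
  field_simp [(eg_pos N j).ne']

/-- The norm on `W N`. -/
noncomputable def nrm (N : ℝ) : AddGroupNorm (F.W N) where
  toFun v := ⨆ j : ℤ, eg (-N) j * F.α j (v : V)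
  map_zero' := by simp
  add_le' := by
    intro v w
    apply ciSup_le
    intro j
    calc eg (-N) j * F.α j ((v + w : F.W N) : V)
        ≤ eg (-N) j * (F.α j (v : V) + F.α j (w : V)) :=
          mul_le_mul_of_nonneg_left (map_add_le_add _ _ _) (eg_pos _ _).le
      _ = eg (-N) j * F.α j (v : V) + eg (-N) j * F.α j (w : V) := mul_add _ _ _
      _ ≤ _ := add_le_add (le_ciSup (F.bdd v) j) (le_ciSup (F.bdd w) j)
  neg' := by
    intro v
    congr 1
    funext j
    congr 1
    exact map_neg_eq_map (F.α j) _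
  eq_zero_of_map_eq_zero' := by
    intro v hv
    have h1 : ∀ j, F.α j (v : V) = 0 := by
      intro j
      have h2 := le_ciSup (F.bdd v) j
      rw [hv] at h2
      have h3 : F.α j (v : V) ≤ 0 := by
        by_contra h4
        have := mul_pos (eg_pos (-N) j) (not_le.1 h4)
        linarith
      exact le_antisymm h3 (apply_nonneg _ _)
    exact Subtype.ext (F.sep _ h1)

/-- `W N` as a normed group. -/
noncomputable abbrev ngW (N : ℝ) : NormedAddCommGroup (F.W N) := (F.nrm N).toNormedAddCommGroup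

lemma norm_def (N : ℝ) (v : F.W N) :
    (F.ngW N).toNorm.norm v = ⨆ j : ℤ, eg (-N) j * F.α j (v : V) := rfl

lemma le_norm (N : ℝ) (v : F.W N) (j : ℤ) :
    F.α j (v : V) ≤ (F.ngW N).toNorm.norm v * eg N j := by
  rw [norm_def]
  have := mul_le_mul_of_nonneg_right (le_ciSup (F.bdd v) j) (eg_pos N j).le
  refine le_trans (le_of_eq ?_) this
  rw [eg_neg_left]
  field_simp [(eg_pos N j).ne']

lemma norm_le (N : ℝ) (v : F.W N) {C : ℝ} (h : ∀ j, F.α j (v : V) ≤ C * eg N j) :
    (F.ngW N).toNorm.norm v ≤ C := by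
  rw [norm_def]
  apply ciSup_le
  intro j
  have := mul_le_mul_of_nonneg_left (h j) (eg_pos (-N) j).le
  refine this.trans (le_of_eq ?_)
  rw [eg_neg_left]
  field_simp [(eg_pos N j).ne']

/-- `W N` as a normed space. -/
noncomputable abbrev nsW (N : ℝ) : @NormedSpace ℂ (F.W N) _ (F.ngW N).toSeminormedAddCommGroup :=
  letI := F.ngW N
  { norm_smul_le := by
      intro c v
      apply F.norm_le
      intro j
      have : F.α j ((c • v : F.W N) : V) = ‖c‖ * F.α j (v : V) := map_smul_eq_mul _ _ _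
      rw [this, mul_assoc]
      exact mul_le_mul_of_nonneg_left (F.le_norm N v j) (norm_nonneg _) }

lemma complete (N : ℝ) : @CompleteSpace (F.W N) (F.ngW N).toUniformSpace := by
  letI := F.ngW N
  letI := F.nsW N
  apply Metric.complete_of_cauchySeq_tendsto
  intro v hv
  obtain ⟨R, hR⟩ := hv.norm_bddAbove
  have hR' : ∀ n, ‖v n‖ ≤ R := fun n => hR ⟨n, rfl⟩
  have hbd : ∀ j n, F.α j (v n : V) ≤ R * eg N j := fun j n =>
    (F.le_norm N (v n) j).trans (mul_le_mul_of_nonneg_right (hR' n) (eg_pos _ _).le)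
  obtain ⟨w, φ, hφ, hw⟩ := F.montel (fun n => (v n : V)) (fun j => ⟨_, hbd j⟩)
  have hwW : w ∈ F.W N := by
    refine ⟨R, fun j => ?_⟩
    have h1 : ∀ n, F.α j w ≤ R * eg N j + F.α j ((v (φ n) : V) - w) := by
      intro n
      have h2 : F.α j w ≤ F.α j (v (φ n) : V) + F.α j ((v (φ n) : V) - w) := by
        have := map_sub_le_add (F.α j) (v (φ n) : V) ((v (φ n) : V) - w)
        simpa using this
      exact h2.trans (add_le_add_left (hbd j _) _)
    have h3 := (hw j).const_add (R * eg N j)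
    rw [add_zero] at h3
    exact ge_of_tendsto' h3 h1
  refine ⟨⟨w, hwW⟩, ?_⟩
  rw [Metric.tendsto_atTop]
  intro ε hε
  obtain ⟨M, hM⟩ := Metric.cauchySeq_iff.1 hv (ε / 2) (by positivity)
  refine ⟨M, fun n hn => ?_⟩
  rw [dist_eq_norm]
  refine lt_of_le_of_lt (F.norm_le N (v n - ⟨w, hwW⟩) (C := ε / 2) (fun j => ?_)) (by linarith)
  have h1 : ∀ᶠ m in atTop, F.α j ((v n : V) - w) ≤
      ε / 2 * eg N j + F.α j ((v (φ m) : V) - w) := by
    filter_upwards [eventually_ge_atTop M] with m hm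
    have h2 : F.α j ((v n : V) - w) ≤
        F.α j ((v n : V) - (v (φ m) : V)) + F.α j ((v (φ m) : V) - w) := by
      have := map_add_le_add (F.α j) ((v n : V) - (v (φ m) : V)) ((v (φ m) : V) - w)
      simpa using this
    refine h2.trans (add_le_add_left ?_ _)
    have h3 : ‖v n - v (φ m)‖ < ε / 2 := by
      rw [← dist_eq_norm]; exact hM n hn _ (hm.trans (hφ.id_le m))
    have h4 := F.le_norm N (v n - v (φ m)) j
    exact h4.trans (mul_le_mul_of_nonneg_right h3.le (eg_pos _ _).le)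
  have h5 := (hw j).const_add (ε / 2 * eg N j)
  rw [add_zero] at h5
  exact ge_of_tendsto h5 h1

lemma T_mem {N : ℝ} (hN : 0 ≤ N) {v : V} (hv : v ∈ F.W N) : F.T v ∈ F.W N := by
  obtain ⟨C, hC⟩ := hv
  have hC0 : 0 ≤ C := by
    have := (apply_nonneg (F.α 0) v).trans (hC 0)
    rwa [eg_zero, mul_one] at this
  refine ⟨C * eg N 1, fun j => ?_⟩
  rw [F.shift]
  refine (hC (j + 1)).trans ?_
  rw [mul_assoc]
  refine mul_le_mul_of_nonneg_left ?_ hC0
  rw [mul_comm]
  exact eg_add_le hN j 1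

lemma Ts_mem {N : ℝ} (hN : 0 ≤ N) {v : V} (hv : v ∈ F.W N) : F.T.symm v ∈ F.W N := by
  obtain ⟨C, hC⟩ := hv
  have hC0 : 0 ≤ C := by
    have := (apply_nonneg (F.α 0) v).trans (hC 0)
    rwa [eg_zero, mul_one] at this
  refine ⟨C * eg N 1, fun j => ?_⟩
  rw [F.shift_symm]
  refine (hC (j - 1)).trans ?_
  rw [mul_assoc]
  refine mul_le_mul_of_nonneg_left ?_ hC0
  rw [mul_comm]
  exact eg_sub_le hN j 1

/-- **(U1)** -/
theorem eq_zero_of_exp {N C : ℝ} (hN : 0 ≤ N) {v : V} (hv : ∀ j, F.α j v ≤ C * eg N j) :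
    v = 0 := by
  by_contra hv0
  letI := F.ngW N
  letI := F.nsW N
  haveI := F.complete N
  have hvW : v ∈ F.W N := ⟨C, hv⟩
  haveI : Nontrivial (F.W N) := ⟨⟨⟨v, hvW⟩, 0, fun h => hv0 (congrArg Subtype.val h)⟩⟩
  -- the translation as a bounded operator
  let A₀ : F.W N →ₗ[ℂ] F.W N :=
    { toFun := fun v => ⟨F.T v, F.T_mem hN v.2⟩
      map_add' := fun a b => Subtype.ext (map_add F.T _ _)
      map_smul' := fun c a => Subtype.ext (map_smul F.T _ _) }
  let B₀ : F.W N →ₗ[ℂ] F.W N :=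
    { toFun := fun v => ⟨F.T.symm v, F.Ts_mem hN v.2⟩
      map_add' := fun a b => Subtype.ext (map_add F.T.symm _ _)
      map_smul' := fun c a => Subtype.ext (map_smul F.T.symm _ _) }
  let A : F.W N →L[ℂ] F.W N := A₀.mkContinuous (eg N 1) (by
    intro v
    apply F.norm_le
    intro j
    change F.α j (F.T v) ≤ _
    rw [F.shift]
    refine (F.le_norm N v (j + 1)).trans ?_
    have h1 := eg_add_le hN j 1
    have h2 : 0 ≤ ‖v‖ := norm_nonneg v
    calc _ ≤ ‖v‖ * (eg N j * eg N 1) := mul_le_mul_of_nonneg_left h1 h2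
      _ = _ := by ring)
  let B : F.W N →L[ℂ] F.W N := B₀.mkContinuous (eg N 1) (by
    intro v
    apply F.norm_le
    intro j
    change F.α j (F.T.symm v) ≤ _
    rw [F.shift_symm]
    refine (F.le_norm N v (j - 1)).trans ?_
    have h1 := eg_sub_le hN j 1
    have h2 : 0 ≤ ‖v‖ := norm_nonneg v
    calc _ ≤ ‖v‖ * (eg N j * eg N 1) := mul_le_mul_of_nonneg_left h1 h2
      _ = _ := by ring)
  have hAB : A * B = 1 := by
    ext v
    change F.T (F.T.symm v) = v
    exact F.T.apply_symm_apply _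
  have hBA : B * A = 1 := by
    ext v
    change F.T.symm (F.T v) = v
    exact F.T.symm_apply_apply _
  have hu : IsUnit A := ⟨⟨A, B, hAB, hBA⟩, rfl⟩
  obtain ⟨lam, hlam, happ⟩ := exists_approx_eigenvector A hu
  have hseq : ∀ n : ℕ, ∃ x : F.W N, ‖x‖ = 1 ∧ ‖A x - lam • x‖ < 1 / (n + 1 : ℝ) :=
    fun n => happ _ (by positivity)
  choose x hx1 hx2 using hseq
  have hc : ∀ n, ∃ c : ℤ, 1 / 2 < eg (-N) c * F.α c (x n : V) := by
    intro n
    apply exists_lt_of_lt_ciSup
    have : (⨆ j : ℤ, eg (-N) j * F.α j (x n : V)) = 1 := hx1 n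
    rw [this]; norm_num
  choose c hc using hc
  -- recentre
  let y : ℕ → V := fun n => ((eg (-N) (c n) : ℝ) : ℂ) • ((F.T ^ (c n) : V ≃ₗ[ℂ] V) (x n : V))
  have hy : ∀ n j, F.α j (y n) = eg (-N) (c n) * F.α (j + c n) (x n : V) := by
    intro n j
    simp only [y]
    rw [map_smul_eq_mul, F.shift_zpow, Complex.norm_real, Real.norm_eq_abs,
      abs_of_pos (eg_pos _ _)]
  have hyb : ∀ n j, F.α j (y n) ≤ eg N j := by
    intro n j
    rw [hy]
    have h1 := F.le_norm N (x n) (j + c n)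
    have h2 : (F.ngW N).toNorm.norm (x n) = 1 := hx1 n
    rw [h2, one_mul] at h1
    calc eg (-N) (c n) * F.α (j + c n) (x n : V) ≤ eg (-N) (c n) * (eg N j * eg N (c n)) :=
          mul_le_mul_of_nonneg_left (h1.trans (eg_add_le hN _ _)) (eg_pos _ _).le
      _ = eg N j := by
          rw [eg_neg_left]; field_simp [(eg_pos N (c n)).ne']
  have hcomm : ∀ n, F.T (y n) - lam • y n =
      ((eg (-N) (c n) : ℝ) : ℂ) • ((F.T ^ (c n) : V ≃ₗ[ℂ] V) (F.T (x n : V) - lam • (x n : V))) := by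
    intro n
    simp only [y, map_smul, map_sub, smul_sub]
    congr 1
    · congr 1
      rw [← LinearEquiv.mul_apply, ← LinearEquiv.mul_apply, ← zpow_one_add, ← zpow_add_one,
        add_comm]
    · rw [smul_comm]
  have hys : ∀ n j, F.α j (F.T (y n) - lam • y n) ≤ 1 / (n + 1 : ℝ) * eg N j := by
    intro n j
    rw [hcomm, map_smul_eq_mul, F.shift_zpow, Complex.norm_real, Real.norm_eq_abs,
      abs_of_pos (eg_pos _ _)]
    have h1 := F.le_norm N (A (x n) - lam • x n) (j + c n)
    have h2 : F.α (j + c n) (F.T (x n : V) - lam • (x n : V)) ≤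
        1 / (n + 1 : ℝ) * (eg N j * eg N (c n)) := by
      refine h1.trans ?_
      refine mul_le_mul (hx2 n).le (eg_add_le hN _ _) (eg_pos _ _).le (by positivity)
    calc eg (-N) (c n) * F.α (j + c n) (F.T (x n : V) - lam • (x n : V))
        ≤ eg (-N) (c n) * (1 / (n + 1 : ℝ) * (eg N j * eg N (c n))) :=
          mul_le_mul_of_nonneg_left h2 (eg_pos _ _).le
      _ = _ := by rw [eg_neg_left]; field_simp [(eg_pos N (c n)).ne']
  obtain ⟨w, φ, hφ, hw⟩ := F.montel y (fun j => ⟨eg N j, fun n => hyb n j⟩)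
  have hTw : F.T w = lam • w := by
    rw [← sub_eq_zero]
    apply F.sep
    intro j
    apply le_antisymm _ (apply_nonneg _ _)
    have h1 : ∀ n, F.α j (F.T w - lam • w) ≤
        F.α (j + 1) (y (φ n) - w) + ‖lam‖ * F.α j (y (φ n) - w) +
          1 / ((φ n : ℕ) + 1 : ℝ) * eg N j := by
      intro n
      have h2 : F.T w - lam • w = (F.T (y (φ n)) - lam • y (φ n)) -
          (F.T (y (φ n) - w) - lam • (y (φ n) - w)) := by
        simp only [map_sub, smul_sub]; abel
      rw [h2]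
      refine (map_sub_le_add _ _ _).trans ?_
      have h3 := hys (φ n) j
      have h4 : F.α j (F.T (y (φ n) - w) - lam • (y (φ n) - w)) ≤
          F.α (j + 1) (y (φ n) - w) + ‖lam‖ * F.α j (y (φ n) - w) := by
        refine (map_sub_le_add _ _ _).trans (le_of_eq ?_)
        rw [F.shift, map_smul_eq_mul]
      linarith
    have h5 : Tendsto (fun n => F.α (j + 1) (y (φ n) - w) + ‖lam‖ * F.α j (y (φ n) - w) +
          1 / ((φ n : ℕ) + 1 : ℝ) * eg N j) atTop (𝓝 (0 + ‖lam‖ * 0 + 0 * eg N j)) := by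
      refine ((hw (j + 1)).add ((hw j).const_mul _)).add (Tendsto.mul_const _ ?_)
      exact (tendsto_one_div_add_atTop_nhds_zero_nat (𝕜 := ℝ)).comp hφ.tendsto_atTop
    simp only [mul_zero, zero_mul, add_zero] at h5
    exact ge_of_tendsto' h5 h1
  have hw0 := F.nofl w lam hlam hTw
  have h6 : ∀ n, 1 / 2 ≤ F.α 0 (y (φ n) - w) := by
    intro n
    rw [hw0, sub_zero, hy, zero_add]
    exact (hc _).le
  have h7 := ge_of_tendsto' (hw 0) h6
  norm_num at h7

end Flq

/-- **(U2)**: a section `v'` of a bundle which is asymptotic to the model at both ends.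
`β j` is the slab norm of (a fixed) `v'`.  Hypotheses: exponential growth; every recentring
sequence `c n → ±∞` of the normalised section has a limit in the model space; the maximum
principle kills superexponentially decaying sections. -/
theorem superexp_of_exp {β : ℤ → ℝ} (hβ : ∀ j, 0 ≤ β j) {N C : ℝ} (hN : 0 ≤ N)
    (hC : ∀ j, β j ≤ C * eg N j)
    (hlim : ∀ (M : ℝ) (c : ℕ → ℤ), Tendsto (fun n => |c n|) atTop atTop →
      ¬ ∀ n, 0 < β (c n) ∧ ∀ j, β (c n + j) ≤ eg M j * β (c n)) (M : ℝ) :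
    ∃ D, ∀ j, β j ≤ D * eg (-M) j := by
  by_contra hcon
  push Not at hcon
  have hC0 : 0 ≤ C := by
    have := (hβ 0).trans (hC 0)
    rwa [eg_zero, mul_one] at this
  -- we may enlarge `M`
  set M₀ : ℝ := max M 0 with hM₀
  have hM₀0 : 0 ≤ M₀ := le_max_right _ _
  set M' : ℝ := 2 * M₀ + N + 1 with hM'
  have hM'pos : 0 < M' := by positivity
  -- bad points
  have hbad : ∀ n : ℕ, ∃ J : ℤ, (n + C + 1 : ℝ) * eg (-M₀) J < β J := by
    intro n
    obtain ⟨J, hJ⟩ := hcon (n + C + 1)
    refine ⟨J, lt_of_le_of_lt ?_ hJ⟩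
    exact mul_le_mul_of_nonneg_left (eg_mono_left (by linarith [le_max_left M 0]) J)
      (by positivity)
  choose J hJ using hbad
  have hJpos : ∀ n, 0 < β (J n) := fun n =>
    lt_of_le_of_lt (mul_nonneg (by positivity) (eg_pos _ _).le) (hJ n)
  -- centres
  have hcen : ∀ n : ℕ, ∃ c : ℤ, 0 < β c ∧ (∀ k, β k ≤ eg M' (k - c) * β c) ∧
      β (J n) ≤ eg (-M') (c - J n) * β c := by
    intro n
    -- the weighted profile tends to zero
    have ht : Tendsto (fun k : ℤ => eg (-M') (k - J n) * β k) cofinite (𝓝 0) := by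
      have h1 : ∀ k : ℤ, eg (-M') (k - J n) * β k ≤ (eg M' (J n) * C) * eg (-1) k := by
        intro k
        have h2 : eg M' k ≤ eg M' (k - J n) * eg M' (J n) := by
          have := eg_add_le hM'pos.le (k - J n) (J n)
          simpa using this
        have h3 : eg (-M') (k - J n) ≤ eg M' (J n) * eg (-M') k := by
          rw [eg_neg_left, eg_neg_left, ← div_eq_mul_inv, le_div_iff₀ (eg_pos _ _),
            ← div_eq_inv_mul, div_le_iff₀ (eg_pos _ _), mul_comm (eg M' (J n))]
          exact h2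
        calc eg (-M') (k - J n) * β k ≤ (eg M' (J n) * eg (-M') k) * (C * eg N k) :=
              mul_le_mul h3 (hC k) (hβ k) (mul_nonneg (eg_pos _ _).le (eg_pos _ _).le)
          _ = (eg M' (J n) * C) * (eg (-M') k * eg N k) := by ring
          _ ≤ (eg M' (J n) * C) * eg (-1) k := by
              refine mul_le_mul_of_nonneg_left ?_ (mul_nonneg (eg_pos _ _).le hC0)
              rw [eg_mul]
              exact eg_mono_left (by linarith) k
      have h4 : Tendsto (fun k : ℤ => (eg M' (J n) * C) * eg (-1) k) cofinite (𝓝 0) := by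
        simpa using (tendsto_eg_neg one_pos).const_mul (eg M' (J n) * C)
      exact squeeze_zero (fun k => mul_nonneg (eg_pos _ _).le (hβ k)) h1 h4
    obtain ⟨c, hc0, hc⟩ := exists_max_of_tendsto ht (j := J n)
      (mul_pos (eg_pos _ _) (hJpos n))
    have hβc : 0 < β c := by
      by_contra hcon
      have : β c = 0 := le_antisymm (not_lt.1 hcon) (hβ c)
      rw [this, mul_zero] at hc0
      exact lt_irrefl _ hc0
    have key : ∀ k, β k ≤ eg M' (k - J n) * (eg (-M') (c - J n) * β c) := by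
      intro k
      have h4 : β k = eg M' (k - J n) * (eg (-M') (k - J n) * β k) := by
        rw [eg_neg_left, ← mul_assoc, mul_inv_cancel₀ (eg_pos _ _).ne', one_mul]
      rw [h4]
      exact mul_le_mul_of_nonneg_left (hc k) (eg_pos _ _).le
    refine ⟨c, hβc, fun k => ?_, ?_⟩
    · refine (key k).trans ?_
      rw [← mul_assoc]
      refine mul_le_mul_of_nonneg_right ?_ hβc.le
      have h5 : eg M' (k - J n) ≤ eg M' (k - c) * eg M' (c - J n) := by
        have := eg_add_le hM'pos.le (k - c) (c - J n)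
        simpa using this
      calc eg M' (k - J n) * eg (-M') (c - J n)
          ≤ (eg M' (k - c) * eg M' (c - J n)) * eg (-M') (c - J n) :=
            mul_le_mul_of_nonneg_right h5 (eg_pos _ _).le
        _ = eg M' (k - c) := by
            rw [mul_assoc, eg_neg_left, mul_inv_cancel₀ (eg_pos _ _).ne', mul_one]
    · have := key (J n)
      simpa [eg_zero] using this
  choose c hc0 hc1 hc2 using hcen
  refine hlim M' c ?_ (fun n => ⟨hc0 n, fun j => by
    have := hc1 n (c n + j)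
    rwa [add_sub_cancel_left] at this⟩)
  -- `|c n| → ∞`
  have hfar : ∀ n, |((J n : ℤ) : ℝ)| ≤ 2 * |((c n : ℤ) : ℝ)| := by
    intro n
    by_contra hcon
    push Not at hcon
    have h1 := hJ n
    have h2 := hc2 n
    have h3 := hC (c n)
    have h4 : (n + C + 1 : ℝ) * eg (-M₀) (J n) < eg (-M') (c n - J n) * (C * eg N (c n)) :=
      lt_of_lt_of_le h1 (h2.trans (mul_le_mul_of_nonneg_left h3 (eg_pos _ _).le))
    -- exponents
    have h5 : eg (-M') (c n - J n) * eg N (c n) ≤ eg (-M₀) (J n) := by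
      simp only [eg, ← Real.exp_add]
      apply exp_le_exp.2
      have h6 : |((J n : ℤ) : ℝ)| ≤ |((c n - J n : ℤ) : ℝ)| + |((c n : ℤ) : ℝ)| := by
        have := abs_sub_abs_le_abs_sub ((J n : ℤ) : ℝ) ((c n : ℤ) : ℝ)
        push_cast
        rw [abs_sub_comm] at this
        linarith
      have h7 : |((J n : ℤ) : ℝ)| / 2 ≤ |((c n - J n : ℤ) : ℝ)| := by linarith
      have h8 : |((c n : ℤ) : ℝ)| ≤ |((c n - J n : ℤ) : ℝ)| := by linarith
      have h9 : 0 ≤ |((c n - J n : ℤ) : ℝ)| := abs_nonneg _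
      have h10 : N * |((c n : ℤ) : ℝ)| ≤ N * |((c n - J n : ℤ) : ℝ)| :=
        mul_le_mul_of_nonneg_left h8 hN
      have h11 : M₀ * |((J n : ℤ) : ℝ)| ≤ 2 * M₀ * |((c n - J n : ℤ) : ℝ)| := by nlinarith
      rw [hM']
      nlinarith
    have h12 : (n + C + 1 : ℝ) * eg (-M₀) (J n) < C * eg (-M₀) (J n) := by
      refine lt_of_lt_of_le h4 ?_
      calc eg (-M') (c n - J n) * (C * eg N (c n)) = C * (eg (-M') (c n - J n) * eg N (c n)) := by
            ring
        _ ≤ _ := mul_le_mul_of_nonneg_left h5 hC0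
    have h13 := lt_of_mul_lt_mul_right h12 (eg_pos _ _).le
    have : (0 : ℝ) ≤ n := Nat.cast_nonneg n
    linarith
  have hJinf : Tendsto (fun n => |((J n : ℤ) : ℝ)|) atTop atTop := by
    rw [tendsto_atTop]
    intro R
    -- on `|J| ≤ R` the profile is bounded by `C * exp (N R)`
    have hR : ∀ n : ℕ, |((J n : ℤ) : ℝ)| < R →
        (n : ℝ) < (C * exp (N * R)) * exp (M₀ * R) := by
      intro n hn
      have h1 := (hJ n).trans_le (hC (J n))
      have h2 : eg N (J n) ≤ exp (N * R) :=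
        exp_le_exp.2 (mul_le_mul_of_nonneg_left hn.le hN)
      have h3 : exp (-(M₀ * R)) ≤ eg (-M₀) (J n) := by
        apply exp_le_exp.2
        rw [neg_mul, neg_le_neg_iff]
        exact mul_le_mul_of_nonneg_left hn.le hM₀0
      have h4 : (n + C + 1 : ℝ) * exp (-(M₀ * R)) < C * exp (N * R) := by
        calc (n + C + 1 : ℝ) * exp (-(M₀ * R)) ≤ (n + C + 1 : ℝ) * eg (-M₀) (J n) :=
              mul_le_mul_of_nonneg_left h3 (by positivity)
          _ < C * eg N (J n) := h1
          _ ≤ C * exp (N * R) := mul_le_mul_of_nonneg_left h2 hC0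
      have h5 : (n + C + 1 : ℝ) < (C * exp (N * R)) * exp (M₀ * R) := by
        rw [Real.exp_neg, ← div_eq_mul_inv, div_lt_iff₀ (exp_pos _)] at h4
        exact h4
      linarith
    obtain ⟨n₀, hn₀⟩ := exists_nat_gt ((C * exp (N * R)) * exp (M₀ * R))
    filter_upwards [eventually_ge_atTop n₀] with n hn
    by_contra hlt
    have := hR n (not_le.1 hlt)
    have h6 : (n₀ : ℝ) ≤ n := by exact_mod_cast hn
    linarith
  have hcinf : Tendsto (fun n => |((c n : ℤ) : ℝ)|) atTop atTop := by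
    refine tendsto_atTop_mono (fun n => ?_) (hJinf.atTop_div_const (show (0 : ℝ) < 2 by norm_num))
    have := hfar n
    linarith
  have hcast : ∀ n, ((|c n| : ℤ) : ℝ) = |((c n : ℤ) : ℝ)| := fun n => by push_cast; rfl
  exact (tendsto_intCast_atTop_iff (R := ℝ)).1 (by simpa [hcast] using hcinf)

/-- **(U2)**, final form. `F` : the model space (holomorphic sections of `K` on the cyclic
cover); `V'` : holomorphic sections of a bundle asymptotic to the model at both ends. -/
theorem Flq.eq_zero_twisted (F : Flq V) {V' : Type*} [AddCommGroup V'] [Module ℂ V']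
    (α' : ℤ → Seminorm ℂ V')
    (hlim : ∀ (v' : V') (M : ℝ) (c : ℕ → ℤ), Tendsto (fun n => |c n|) atTop atTop →
      (∀ n, 0 < α' (c n) v' ∧ ∀ j, α' (c n + j) v' ≤ eg M j * α' (c n) v') →
      ∃ v : V, F.α 0 v ≠ 0 ∧ ∃ C, ∀ j, F.α j v ≤ C * eg M j)
    (hmax : ∀ v' : V', (∀ M : ℝ, ∃ D, ∀ j, α' j v' ≤ D * eg (-M) j) → v' = 0)
    {N C : ℝ} (hN : 0 ≤ N) {v' : V'} (hv : ∀ j, α' j v' ≤ C * eg N j) : v' = 0 := by
  apply hmax
  refine superexp_of_exp (β := fun j => α' j v') (fun j => apply_nonneg _ _) hN hv ?_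
  intro M c hc hcon
  obtain ⟨v, hv0, D, hD⟩ := hlim v' M c hc hcon
  have hD' : ∀ j, F.α j v ≤ D * eg (max M 0) j := by
    intro j
    have hD0 : 0 ≤ D := by
      have := (apply_nonneg (F.α 0) v).trans (hD 0)
      rwa [eg_zero, mul_one] at this
    exact (hD j).trans (mul_le_mul_of_nonneg_left (eg_mono_left (le_max_left _ _) j) hD0)
  have := F.eq_zero_of_exp (le_max_right M 0) hD'
  rw [this] at hv0
  exact hv0 (map_zero _)

end Vale.Agent.P267.H413
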